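import Vale.Agent.P092.H885.Conj

/-!
The dichotomy for frames: canonical, or `δ_1` is orthogonal to the invariant vectors.
-/

set_option linter.all false

open scoped InnerProductSpace
open Filter Topology ContinuousLinearMap

namespace Vale.Agent.P092.H885

open Vale.Agent.P092.H160

variable {Γ Λ : Type} [Group Γ] [Group Λ] {α : Γ →* (Ell2 Λ →L[ℂ] Ell2 Λ)}

/-- The canonical form of the frame, from an invariant cubic intertwiner (same proof as
`canon_of_p4`). -/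
theorem canon_of_T (hα : Frame α)
    (hΓ : ∀ g : Γ, g ≠ 1 → Set.Infinite {y : Γ | ∃ h, y = h * g * h⁻¹})
    {c : ℝ} (hc : 0 < c) {T : Ell2 Λ →L[ℂ] Ell2 (Λ × Λ × Λ)} (hT : Good c T)
    (hTα : ∀ g v, T (α g v) = A3 α g (T v)) :
    ∃ (V : Ell2 Λ →L[ℂ] Ell2 Λ) (δ : Γ ≃* Λ) (χ : Γ →* Circle), Cmm rhoH V ∧
      adjoint V * V = 1 ∧ V * adjoint V = 1 ∧
      ∀ g, α g = (χ g : ℂ) • (V * lam (δ g) * adjoint V) := by
  have hΛ := hα.icc hΓ
  have hI : Itw α ι3 (A3 α) T := ⟨hT.rho_map, hTα⟩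
  obtain ⟨e, he, κ, hκ, hTe⟩ := exists_cubic hα hΛ hc hT hTα
  have hE : CubE T κ e := ⟨he, hTe⟩
  obtain ⟨β, hβ⟩ := adj_comp_scalar hα hΛ hI
  have horth : ∀ k : Λ, k ≠ 1 → ⟪e, rho k e⟫_ℂ = 0 := fun k hk => cub_orth hα hΛ hI hκ hE k hk
  have hreg : RegRep (rhoH (G := Λ)) e := regRep_of_orth he horth
  have ho := orth_translates he horth
  set V := opOf (bes_of_orthonormal ho) with hV
  have hVdl : ∀ x, V (dl x) = rho x⁻¹ e := fun x => opOf_dl _ x
  have hi : adjoint V * V = 1 := opOf_isometry ho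
  have hVc : Cmm rhoH V := by
    intro y
    apply op_ext
    intro x
    rw [mul_ap, mul_ap, rhoH_apply, rho_dl, hVdl, hVdl, mul_inv_rev, inv_inv, rho_mul]
    rfl
  have hf := regRep_rho.finite hVc hi
  -- the permutation
  have hex : ∀ g, ∃ s : Λ, ∃ z : Circle, α g e = (z : ℂ) • rho s⁻¹ e := by
    intro g
    have h1 : ∃ s : Λ, ⟪rho s e, α g e⟫_ℂ ≠ 0 := by
      by_contra h
      push Not at h
      have h2 := hreg.total (α g e) h
      have h3 := hα.reg.norm_map g e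
      rw [h2, norm_zero, he] at h3
      exact zero_ne_one h3
    obtain ⟨s, hs⟩ := h1
    have h4 := (CubE.dichotomy hκ hβ (hE.rho hI s) (hE.alpha hα hI g)).resolve_left hs
    have h5 := eq_smul_of_norm_inner (by rw [norm_rho, he]) (by rw [hα.reg.norm_map, he]) h4
    refine ⟨s⁻¹, ⟨⟪rho s e, α g e⟫_ℂ, mem_sphere_zero_iff_norm.mpr h4⟩, ?_⟩
    rw [inv_inv]
    exact h5
  choose δ χ hδ using hex
  have hαV : ∀ g, α g * V = (χ g : ℂ) • (V * lam (δ g)) := by
    intro g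
    apply op_ext
    intro x
    change α g (V (dl x)) = (χ g : ℂ) • V (lam (δ g) (dl x))
    rw [hVdl, hα.apply_comm, hδ, lam_dl, hVdl, map_smul, mul_inv_rev, rho_mul]
    rfl
  have hαf : ∀ g, α g = (χ g : ℂ) • (V * lam (δ g) * adjoint V) := by
    intro g
    calc α g = α g * (V * adjoint V) := by rw [hf, mul_one]
      _ = (α g * V) * adjoint V := by rw [mul_assoc]
      _ = _ := by rw [hαV, smul_mul_assoc]
  have hV1 : ∀ v : Ell2 Λ, adjoint V (V v) = v := fun v =>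
    congrArg (fun L : Ell2 Λ →L[ℂ] Ell2 Λ => L v) hi
  have hkey : ∀ g h, (χ (g * h) : ℂ) • (dl (δ (g * h)) : Ell2 Λ) =
      ((χ g : ℂ) * (χ h : ℂ)) • dl (δ g * δ h) := by
    intro g h
    have h1 : (α (g * h) * V) (dl 1) = (α g * (α h * V)) (dl 1) := by
      rw [map_mul, mul_assoc]
    rw [hαV, hαV] at h1
    have h2 : (α g * ((χ h : ℂ) • (V * lam (δ h)))) (dl 1) =
        ((χ h : ℂ) • ((α g * V) * lam (δ h))) (dl 1) := by
      rw [mul_smul_comm, mul_assoc]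
    rw [h2, hαV] at h1
    have h3 : (χ (g * h) : ℂ) • V (lam (δ (g * h)) (dl 1)) =
        (χ h : ℂ) • (χ g : ℂ) • V (lam (δ g) (lam (δ h) (dl 1))) := h1
    have h4 := congrArg (adjoint V) h3
    rw [map_smul, map_smul, map_smul, hV1, hV1, lam_dl, lam_dl, lam_dl, mul_one, mul_one,
      smul_smul, mul_comm (χ h : ℂ)] at h4
    exact h4
  have hδm : ∀ g h, δ (g * h) = δ g * δ h := by
    intro g h
    by_contra hne
    have h1 := congrArg (fun u : Ell2 Λ => u (δ (g * h))) (hkey g h)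
    change (χ (g * h) : ℂ) * (dl (δ (g * h)) : Ell2 Λ) (δ (g * h)) =
      ((χ g : ℂ) * (χ h : ℂ)) * (dl (δ g * δ h) : Ell2 Λ) (δ (g * h)) at h1
    rw [dl_self, dl_ne hne, mul_one, mul_zero] at h1
    exact (Circle.coe_ne_zero _) h1
  have hχm : ∀ g h, χ (g * h) = χ g * χ h := by
    intro g h
    have h1 := congrArg (fun u : Ell2 Λ => u (δ (g * h))) (hkey g h)
    change (χ (g * h) : ℂ) * (dl (δ (g * h)) : Ell2 Λ) (δ (g * h)) =
      ((χ g : ℂ) * (χ h : ℂ)) * (dl (δ g * δ h) : Ell2 Λ) (δ (g * h)) at h1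
    rw [← hδm, dl_self, mul_one, mul_one] at h1
    exact Circle.ext (by rw [Circle.coe_mul]; exact h1)
  have hδ1 : δ 1 = 1 := by
    have := hδm 1 1
    rw [mul_one] at this
    exact (left_eq_mul.mp this)
  have hχ1 : χ 1 = 1 := by
    have := hχm 1 1
    rw [mul_one] at this
    exact (left_eq_mul.mp this)
  -- traces
  have htr : ∀ s : Λ, ⟪dl 1, V (lam s (adjoint V (dl 1)))⟫_ℂ = ⟪(dl 1 : Ell2 Λ), dl s⟫_ℂ := by
    intro s
    have h1 := regRep_rho.trace_comm (hVc.mul (cmm_rho_lam s)) (regRep_rho.cmm_adjoint hVc)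
    rw [mul_ap, mul_ap] at h1
    rw [h1, hV1, lam_dl, mul_one]
  have hinj : Function.Injective δ := by
    have h0 : ∀ g, δ g = 1 → g = 1 := by
      intro g hg
      by_contra hne
      have h1 := hα.reg.inner_zero g hne
      rw [hαf g, hg] at h1
      change ⟪dl 1, (χ g : ℂ) • V (lam 1 (adjoint V (dl 1)))⟫_ℂ = 0 at h1
      rw [inner_smul_right, htr, inner_dl, dl_self, mul_one] at h1
      exact (Circle.coe_ne_zero _) h1
    intro g h hgh
    have h1 : δ (g * h⁻¹) = 1 := by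
      have h2 : δ h * δ h⁻¹ = 1 := by rw [← hδm, mul_inv_cancel, hδ1]
      rw [hδm, hgh, h2]
    exact mul_inv_eq_one.mp (h0 _ h1)
  have hsurj : Function.Surjective δ := by
    intro s
    by_contra hne
    push Not at hne
    have h1 : V (lam s (adjoint V (dl 1))) = 0 := by
      refine hα.reg.total _ fun g => ?_
      have h2 : α g (dl 1) = (χ g : ℂ) • V (lam (δ g) (adjoint V (dl 1))) := by
        rw [hαf g]; rfl
      have h3 : ⟪V (lam (δ g) (adjoint V (dl 1))), V (lam s (adjoint V (dl 1)))⟫_ℂ =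
          ⟪lam (δ g) (adjoint V (dl 1)), lam s (adjoint V (dl 1))⟫_ℂ := by
        rw [← adjoint_inner_right, hV1]
      have h4 := (regRep_lam (G := Λ)).inner_left (δ g) (adjoint V (dl 1))
        (lam s (adjoint V (dl 1)))
      rw [lamH_apply, lamH_apply] at h4
      rw [h2, inner_smul_left, h3, h4, ← mul_ap, ← lam_mul, adjoint_inner_left, htr, inner_dl,
        dl_ne, mul_zero]
      intro h5
      exact hne g (by rw [eq_comm, inv_mul_eq_one] at h5; exact h5)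
    have h2 : ‖V (lam s (adjoint V (dl 1)))‖ = 1 := by
      have h3 : ‖adjoint V (dl 1)‖ = ‖V (dl 1)‖ := regRep_rho.norm_adjoint hVc
      rw [norm_of_adj_comp hi, norm_lam, h3, norm_of_adj_comp hi, norm_dl]
    rw [h1, norm_zero] at h2
    exact zero_ne_one h2
  exact ⟨V, MulEquiv.ofBijective (MonoidHom.mk' δ hδm) ⟨hinj, hsurj⟩,
    MonoidHom.mk' χ hχm, hVc, hi, hf, hαf⟩


/-- Canonical form, or orthogonality to the invariant vectors. -/
theorem canon_or_orth (hα : Frame α)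
    (hΓ : ∀ g : Γ, g ≠ 1 → Set.Infinite {y : Γ | ∃ h, y = h * g * h⁻¹}) :
    (∃ (V : Ell2 Λ →L[ℂ] Ell2 Λ) (δ : Γ ≃* Λ) (χ : Γ →* Circle), Cmm rhoH V ∧
      adjoint V * V = 1 ∧ V * adjoint V = 1 ∧
      ∀ g, α g = (χ g : ℂ) • (V * lam (δ g) * adjoint V)) ∨
    ∀ η : Ell2 (Λ × Λ × Λ), (∀ g, pr hα g η = η) → ⟪η, dl 1⟫_ℂ = 0 := by
  obtain ⟨T, hT, hTα, hself, hconst⟩ := exists_min hα
  by_cases h0 : T (dl 1) = 0
  · right
    intro η hη
    rw [← hconst η hη, h0, inner_zero_right]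
  · left
    have hpos : 0 < ‖T (dl 1)‖ ^ 2 := by
      have := norm_pos_iff.mpr h0
      positivity
    refine canon_of_T hα hΓ hpos (T := T) ⟨hT.norm_le, hT.rho_map, hT.sym, ?_⟩ hTα
    have h1 : ⟪(dl 1 : Ell2 (Λ × Λ × Λ)), T (dl 1)⟫_ℂ = ((‖T (dl 1)‖ ^ 2 : ℝ) : ℂ) := by
      rw [← inner_conj_symm, hself, Complex.conj_ofReal]
    rw [inner_dl] at h1
    have h2 : T (dl 1) (1, 1, 1) = ((‖T (dl 1)‖ ^ 2 : ℝ) : ℂ) := h1
    rw [h2, Complex.ofReal_re]

end Vale.Agent.P092.H885
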