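import Vale.Agent.P092.H160.TightP4

/-!
The unitary representation of `Γ` on `ℓ²(Λ³)` which is the completion of
`T ↦ (α(g) ⊗ conj α(g) ⊗ α(g)) T α(g)*` on equivariant operators `T : ℓ²(Λ) → ℓ²(Λ³)`.
-/

set_option linter.all false

open scoped InnerProductSpace
open Filter Topology ContinuousLinearMap

namespace Vale.Agent.P092.H885

open Vale.Agent.P092.H160

variable {Γ Λ : Type} [Group Γ] [Group Λ]

/-- the flip `δ_x ↦ δ_{x⁻¹}` -/
noncomputable def iv (Λ : Type) [Group Λ] : Ell2 Λ →L[ℂ] Ell2 Λ := rei (Equiv.inv Λ)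

theorem iv_apply (v : Ell2 Λ) (x : Λ) : iv Λ v x = v x⁻¹ := rfl

theorem iv_iv : iv Λ * iv Λ = 1 := by
  ext1 v
  apply ext_inner_dl
  intro x
  change v x⁻¹⁻¹ = v x
  rw [inv_inv]

theorem adjoint_iv : adjoint (iv Λ) = iv Λ := by
  rw [iv, adjoint_rei]
  rfl

theorem iv_rho_iv (x : Λ) : iv Λ * rho x * iv Λ = lam x := by
  ext1 v
  apply ext_inner_dl
  intro y
  change (rho x (iv Λ v)) y⁻¹ = v (x⁻¹ * y)
  rw [rho_apply, iv_apply, mul_inv_rev, inv_inv]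

/-- `J α(g) J`, as a homomorphism. -/
noncomputable def Cg (α : Γ →* (Ell2 Λ →L[ℂ] Ell2 Λ)) : Γ →* (Ell2 Λ →L[ℂ] Ell2 Λ) where
  toFun g := iv Λ * bar (α g) * iv Λ
  map_one' := by rw [map_one, bar_one, mul_one, iv_iv]
  map_mul' g h := by
    rw [map_mul, bar_mul]
    have : iv Λ * (bar (α g) * bar (α h)) * iv Λ =
        iv Λ * bar (α g) * (iv Λ * iv Λ) * (bar (α h) * iv Λ) := by
      rw [iv_iv, mul_one]
      simp only [mul_assoc]
    rw [this]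
    simp only [mul_assoc]

theorem Cg_apply (α : Γ →* (Ell2 Λ →L[ℂ] Ell2 Λ)) (g : Γ) :
    Cg α g = iv Λ * bar (α g) * iv Λ := rfl

variable {α : Γ →* (Ell2 Λ →L[ℂ] Ell2 Λ)}

theorem Cg_adj (hα : Frame α) (g : Γ) : adjoint (Cg α g) = Cg α g⁻¹ := by
  rw [Cg_apply, ← star_eq_adjoint, star_mul, star_mul, star_eq_adjoint, star_eq_adjoint,
    adjoint_iv, adjoint_bar, hα.reg.adj, Cg_apply, mul_assoc]

theorem Cg_lam (hα : Frame α) (g : Γ) (x : Λ) : Cg α g * lam x = lam x * Cg α g := by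
  rw [← iv_rho_iv, Cg_apply]
  have h1 := bar_comm_rho hα g x
  calc iv Λ * bar (α g) * iv Λ * (iv Λ * rho x * iv Λ)
      = iv Λ * (bar (α g) * (iv Λ * iv Λ) * rho x) * iv Λ := by simp only [mul_assoc]
    _ = iv Λ * (rho x * (iv Λ * iv Λ) * bar (α g)) * iv Λ := by
        rw [iv_iv, mul_one, mul_one, h1]
    _ = iv Λ * rho x * iv Λ * (iv Λ * bar (α g) * iv Λ) := by simp only [mul_assoc]

theorem alpha_inv_coord (hα : Frame α) (g : Γ) (y : Λ) :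
    (α g⁻¹ (dl 1) : Ell2 Λ) y = (starRingEnd ℂ) ((α g (dl 1) : Ell2 Λ) y⁻¹) := by
  have h1 : α g (dl y) = rho y⁻¹ (α g (dl 1)) := by
    rw [dl_eq_rho, hα.apply_comm]
  rw [← inner_dl, ← hα.reg.inner_left, h1, inner_dl_right, rho_apply, one_mul]

theorem Cg_dl_one (hα : Frame α) (g : Γ) : Cg α g (dl 1) = α g⁻¹ (dl 1) := by
  apply ext_inner_dl
  intro y
  rw [alpha_inv_coord hα]
  have h1 : iv Λ (dl 1) = dl 1 := by
    rw [iv, rei_dl]
    change dl (1 : Λ)⁻¹ = dl 1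
    rw [inv_one]
  change (iv Λ (bar (α g) (iv Λ (dl 1)))) y = _
  rw [h1, iv_apply, bar_dl, cj_apply]

/-- the coordinates adapted to the diagonal right translations -/
def ee (Λ : Type) [Group Λ] : Λ × Λ × Λ ≃ (Λ × Λ) × Λ where
  toFun x := ((x.2.1 * x.1⁻¹, x.2.2 * x.1⁻¹), x.1)
  invFun y := (y.2, y.1.1 * y.2, y.1.2 * y.2)
  left_inv x := by simp
  right_inv y := by simp

/-- The extension of the right multiplication by `α(g)*`. -/
noncomputable def Rg (α : Γ →* (Ell2 Λ →L[ℂ] Ell2 Λ)) :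
    Γ →* (Ell2 (Λ × Λ × Λ) →L[ℂ] Ell2 (Λ × Λ × Λ)) where
  toFun g := rei (ee Λ).symm ∘L tens 1 (Cg α g) ∘L rei (ee Λ)
  map_one' := by
    rw [map_one, tens_one]
    ext1 v
    change rei (ee Λ).symm (rei (ee Λ) v) = v
    rw [rei_rei, Equiv.self_trans_symm, rei_refl]
  map_mul' g h := by
    have h0 := tens_mul (1 : Ell2 (Λ × Λ) →L[ℂ] Ell2 (Λ × Λ)) 1 (Cg α h) (Cg α g)
    rw [mul_one] at h0
    rw [map_mul, h0]
    ext1 v
    change rei (ee Λ).symm (tens 1 (Cg α g) (tens 1 (Cg α h) (rei (ee Λ) v))) =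
      rei (ee Λ).symm (tens 1 (Cg α g) (rei (ee Λ) (rei (ee Λ).symm
        (tens 1 (Cg α h) (rei (ee Λ) v)))))
    rw [rei_rei (ee Λ).symm, Equiv.symm_trans_self, rei_refl]

theorem Rg_apply (g : Γ) (v : Ell2 (Λ × Λ × Λ)) :
    Rg α g v = rei (ee Λ).symm (tens 1 (Cg α g) (rei (ee Λ) v)) := rfl

theorem Rg_adj (hα : Frame α) (g : Γ) : adjoint (Rg α g) = Rg α g⁻¹ := by
  change adjoint (rei (ee Λ).symm ∘L tens 1 (Cg α g) ∘L rei (ee Λ)) = _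
  rw [adjoint_comp, adjoint_comp, adjoint_rei, adjoint_rei, adjoint_tens, Cg_adj hα,
    Equiv.symm_symm, ← star_eq_adjoint (1 : Ell2 (Λ × Λ) →L[ℂ] Ell2 (Λ × Λ)), star_one]
  rfl

/-- the left translation by `x` in the adapted coordinates -/
def mx (x : Λ × Λ × Λ) : Λ × Λ ≃ Λ × Λ where
  toFun u := (x.2.1 * u.1 * x.1⁻¹, x.2.2 * u.2 * x.1⁻¹)
  invFun u := (x.2.1⁻¹ * u.1 * x.1, x.2.2⁻¹ * u.2 * x.1)
  left_inv u := by simp [mul_assoc]
  right_inv u := by simp [mul_assoc]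

theorem lam_ee (x : Λ × Λ × Λ) (v : Ell2 (Λ × Λ × Λ)) :
    lam x v = rei (ee Λ).symm (tens (rei (mx x)) (lam x.1) (rei (ee Λ) v)) := by
  rw [lam, lam, tens_rei, rei_rei, rei_rei]
  congr 1
  congr 1
  ext1 y
  obtain ⟨a, b, c⟩ := x
  obtain ⟨p, q, r⟩ := y
  simp [ee, mx, mul_assoc]

theorem Rg_lam (hα : Frame α) (g : Γ) (x : Λ × Λ × Λ) : Rg α g * lam x = lam x * Rg α g := by
  ext1 v
  change Rg α g (lam x v) = lam x (Rg α g v)
  rw [lam_ee, lam_ee, Rg_apply, Rg_apply, rei_rei (ee Λ).symm, Equiv.symm_trans_self, rei_refl,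
    rei_rei (ee Λ).symm, Equiv.symm_trans_self, rei_refl]
  congr 1
  have h1 : tens 1 (Cg α g) * tens (rei (mx x)) (lam x.1) =
      tens (rei (mx x)) (lam x.1) * tens 1 (Cg α g) := by
    rw [← tens_mul, ← tens_mul, one_mul, mul_one, Cg_lam hα]
  exact congrArg (fun L : Ell2 ((Λ × Λ) × Λ) →L[ℂ] Ell2 ((Λ × Λ) × Λ) => L (rei (ee Λ) v)) h1

theorem A3_Rg (hα : Frame α) (g h : Γ) : A3 α g * Rg α h = Rg α h * A3 α g := by
  have hc : ∀ g s : Λ × Λ × Λ, lamH g * rhoH s = rhoH s * lamH g := fun g s => (rho_lam s g).symm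
  exact RegRep.commute regRep_lam regRep_rho hc (fun s => A3_comm hα g s)
    (fun x => Rg_lam hα h x)

/-- The unitary representation. -/
noncomputable def pr (hα : Frame α) : Γ →* (Ell2 (Λ × Λ × Λ) →L[ℂ] Ell2 (Λ × Λ × Λ)) where
  toFun g := A3 α g * Rg α g
  map_one' := by rw [map_one, map_one, mul_one]
  map_mul' g h := by
    rw [map_mul, map_mul]
    calc A3 α g * A3 α h * (Rg α g * Rg α h) = A3 α g * (A3 α h * Rg α g) * Rg α h := by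
          simp only [mul_assoc]
      _ = A3 α g * (Rg α g * A3 α h) * Rg α h := by rw [A3_Rg hα]
      _ = _ := by simp only [mul_assoc]

theorem pr_apply (hα : Frame α) (g : Γ) : pr hα g = A3 α g * Rg α g := rfl

theorem pr_adj (hα : Frame α) (g : Γ) : adjoint (pr hα g) = pr hα g⁻¹ := by
  rw [pr_apply, ← star_eq_adjoint, star_mul, star_eq_adjoint, star_eq_adjoint, A3_adj hα,
    Rg_adj hα, ← A3_Rg hα]
  rfl

theorem T0_eq (v : Ell2 Λ) : T0 Λ v = rei (ee Λ).symm (tv (dl (1, 1)) v) := by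
  have h : T0 Λ = rei (ee Λ).symm ∘L tvr (dl ((1 : Λ), (1 : Λ))) := by
    apply op_ext
    intro s
    rw [T0_dl, comp_apply, tvr_apply, ← dl_prod, rei_dl]
    change dl (s, s, s) = dl (s, 1 * s, 1 * s)
    rw [one_mul]
  rw [h]
  rfl

theorem Rg_dl (hα : Frame α) (g : Γ) : Rg α g (dl 1) = T0 Λ (α g⁻¹ (dl 1)) := by
  rw [T0_eq, Rg_apply]
  congr 1
  have h1 : rei (ee Λ) (dl (1 : Λ × Λ × Λ)) = tv (dl (1, 1)) (dl 1) := by
    rw [rei_dl, ← dl_prod]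
    change dl (((1 : Λ) * 1⁻¹, (1 : Λ) * 1⁻¹), (1 : Λ)) = _
    rw [inv_one, mul_one]
  rw [h1, tens_tv, Cg_dl_one hα]
  rfl

theorem pr_dl (hα : Frame α) (g : Γ) : pr hα g (dl 1) = Tg α g (dl 1) := by
  change A3 α g (Rg α g (dl 1)) = A3 α g (T0 Λ (α g⁻¹ (dl 1)))
  rw [Rg_dl hα]

theorem pr_left (hα : Frame α) (g : Γ) (u v : Ell2 (Λ × Λ × Λ)) :
    ⟪pr hα g u, v⟫_ℂ = ⟪u, pr hα g⁻¹ v⟫_ℂ := by
  rw [← pr_adj, adjoint_inner_right]

theorem pr_inv_ap (hα : Frame α) (g : Γ) (v : Ell2 (Λ × Λ × Λ)) :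
    pr hα g⁻¹ (pr hα g v) = v := by
  rw [← mul_ap, ← map_mul, inv_mul_cancel, map_one]
  rfl

theorem pr_norm (hα : Frame α) (g : Γ) (v : Ell2 (Λ × Λ × Λ)) : ‖pr hα g v‖ = ‖v‖ := by
  have h1 : ⟪pr hα g v, pr hα g v⟫_ℂ = ⟪v, v⟫_ℂ := by
    rw [pr_left, pr_inv_ap]
  rw [inner_self_eq_norm_sq_to_K, inner_self_eq_norm_sq_to_K] at h1
  have h2 : ‖pr hα g v‖ ^ 2 = ‖v‖ ^ 2 := by exact_mod_cast h1
  exact (pow_left_inj₀ (norm_nonneg _) (norm_nonneg _) two_ne_zero).mp h2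

theorem p4_inv (hα : Frame α) (g : Γ) : p4 α g⁻¹ = p4 α g := by
  unfold p4
  rw [← (Equiv.inv Λ).tsum_eq]
  congr 1
  funext s
  rw [Equiv.inv_apply, alpha_inv_coord hα, inv_inv, RCLike.norm_conj]

theorem pr_coeff (hα : Frame α) (g : Γ) :
    ⟪(dl 1 : Ell2 (Λ × Λ × Λ)), pr hα g (dl 1)⟫_ℂ = (p4 α g : ℂ) := by
  rw [pr_dl, inner_dl]
  have := Tg_corner hα g
  rw [p4_inv hα] at this
  exact this

theorem p4_nonneg (g : Γ) : 0 ≤ p4 α g := tsum_nonneg fun _ => by positivity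

/-- The minimal norm element is invariant; it gives a canonical form, or it is zero and `δ_1` is
orthogonal to the invariant vectors. -/
theorem exists_min (hα : Frame α) : ∃ T : Ell2 Λ →L[ℂ] Ell2 (Λ × Λ × Λ), Good 0 T ∧
    (∀ g v, T (α g v) = A3 α g (T v)) ∧
    ⟪T (dl 1), (dl 1 : Ell2 (Λ × Λ × Λ))⟫_ℂ = ((‖T (dl 1)‖ ^ 2 : ℝ) : ℂ) ∧
    ∀ η : Ell2 (Λ × Λ × Λ), (∀ g, pr hα g η = η) → ⟪η, T (dl 1)⟫_ℂ = ⟪η, dl 1⟫_ℂ := by
  have hc : ∀ g, 0 ≤ p4 α g := fun g => p4_nonneg g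
  obtain ⟨T, hT, hmem, huniq⟩ := exists_inv_aux hα hc
  set K : Set (Ell2 (Λ × Λ × Λ)) := closure (ev '' hull (Set.range (Tg α))) with hK
  -- every invariant vector has constant inner product with the elements of `K`
  have hconst : ∀ η : Ell2 (Λ × Λ × Λ), (∀ g, pr hα g η = η) → ∀ v ∈ K, ⟪η, v⟫_ℂ = ⟪η, dl 1⟫_ℂ := by
    intro η hη v hv
    have hcl : IsClosed {v : Ell2 (Λ × Λ × Λ) | ⟪η, v⟫_ℂ = ⟪η, dl 1⟫_ℂ} :=
      isClosed_eq (by fun_prop) continuous_const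
    refine closure_minimal ?_ hcl hv
    rintro _ ⟨S, hS, rfl⟩
    have hcv : Cvx {S : Ell2 Λ →L[ℂ] Ell2 (Λ × Λ × Λ) | ⟪η, ev S⟫_ℂ = ⟪η, dl 1⟫_ℂ} := by
      intro R hR R' hR' a b ha hb hab
      change ⟪η, ev ((a : ℂ) • R + (b : ℂ) • R')⟫_ℂ = _
      have hR1 : ⟪η, ev R⟫_ℂ = ⟪η, dl 1⟫_ℂ := hR
      have hR2 : ⟪η, ev R'⟫_ℂ = ⟪η, dl 1⟫_ℂ := hR'
      rw [map_add, map_smul, map_smul, inner_add_right, inner_smul_right, inner_smul_right, hR1,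
        hR2, ← add_mul, ← Complex.ofReal_add, hab, Complex.ofReal_one, one_mul]
    refine hull_subset hcv ?_ hS
    rintro _ ⟨g, rfl⟩
    change ⟪η, ev (Tg α g)⟫_ℂ = _
    rw [ev_apply, ← pr_dl hα, ← hη g, pr_left, pr_inv_ap, hη]
  -- `K` is invariant
  have hKinv : ∀ g, ∀ v ∈ K, pr hα g v ∈ K := by
    intro g v hv
    refine map_mem_closure (pr hα g).continuous hv ?_
    rintro _ ⟨S, hS, rfl⟩
    have key : ∀ S ∈ hull (Set.range (Tg α)), pr hα g (ev S) = ev (A3 α g ∘L S ∘L α g⁻¹) := by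
      intro S hS
      have hcv : Cvx {S : Ell2 Λ →L[ℂ] Ell2 (Λ × Λ × Λ) |
          pr hα g (ev S) = ev (A3 α g ∘L S ∘L α g⁻¹)} := by
        intro R hR R' hR' a b ha hb hab
        have hR1 : pr hα g (ev R) = ev (A3 α g ∘L R ∘L α g⁻¹) := hR
        have hR2 : pr hα g (ev R') = ev (A3 α g ∘L R' ∘L α g⁻¹) := hR'
        have e : A3 α g ∘L ((a : ℂ) • R + (b : ℂ) • R') ∘L α g⁻¹ =
            (a : ℂ) • (A3 α g ∘L R ∘L α g⁻¹) + (b : ℂ) • (A3 α g ∘L R' ∘L α g⁻¹) := by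
          ext1 v
          change A3 α g ((a : ℂ) • R (α g⁻¹ v) + (b : ℂ) • R' (α g⁻¹ v)) = _
          rw [map_add, map_smul, map_smul]
          rfl
        change pr hα g (ev ((a : ℂ) • R + (b : ℂ) • R')) =
          ev (A3 α g ∘L ((a : ℂ) • R + (b : ℂ) • R') ∘L α g⁻¹)
        rw [e]
        simp only [map_add, map_smul]
        rw [hR1, hR2]
      refine hull_subset hcv ?_ hS
      rintro _ ⟨h, rfl⟩
      change pr hα g (ev (Tg α h)) = ev (A3 α g ∘L Tg α h ∘L α g⁻¹)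
      rw [conj_Tg, ev_apply, ev_apply, ← pr_dl hα, ← pr_dl hα, ← mul_ap, ← map_mul]
    rw [key S hS]
    exact ⟨_, conj_hull g hS, rfl⟩
  have hω : ∀ g, pr hα g (T (dl 1)) = T (dl 1) := fun g =>
    huniq _ (hKinv g _ hmem) (pr_norm hα g _).le
  refine ⟨T, hT, fun g v => conj_eq_imp hα hT.rho_map g ?_ v, ?_, fun η hη => hconst η hη _ hmem⟩
  · have h3 := conj_mem_closure hα hc hT.rho_map hmem g
    have h4 := (conj_norm hα g hT.rho_map).le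
    exact huniq _ h3 h4
  · have h1 := hconst _ hω _ hmem
    rw [← h1, inner_self_eq_norm_sq_to_K]
    push_cast
    rfl

end Vale.Agent.P092.H885
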