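import Vale.Agent.P092.H885.StDefs2
import Vale.Agent.P092.H885.Canon2
import Vale.Agent.P092.H160.Bridge

/-!
The fourth power sums of a canonical isomorphism are bounded below.
-/

set_option linter.all false

open scoped InnerProductSpace
open Filter Topology ContinuousLinearMap

namespace Vale.Agent.P092.H885

open Vale.Agent.P092.H160

variable {Γ Λ : Type} [Group Γ] [Group Λ]

theorem fourth_eq (T : LG Λ) : fourth (T : Ell2 Λ →L[ℂ] Ell2 Λ) =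
    ∑' s, ‖((T : Ell2 Λ →L[ℂ] Ell2 Λ) (dl 1) : Ell2 Λ) s‖ ^ 4 := by
  unfold fourth
  congr 1
  funext s
  rw [← tr_mul_star_uu, star_uu]
  rfl

theorem fourth_theta (θ : St.StarIso Γ Λ) (g : Γ) :
    fourth (θ.toFun (St.u g)) = p4 (alphaOf (toAlg θ)) g :=
  fourth_eq (toAlg θ (uu g))

theorem rt_eq_rho (s : Λ) : (H350.rt s : Ell2 Λ →L[ℂ] Ell2 Λ) = rho s⁻¹ := by
  rw [rho, inv_inv]
  rfl

theorem RC_of_inL {T : Ell2 Λ →L[ℂ] Ell2 Λ} (hT : St.InL T) : H350.RC T := by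
  intro s ξ
  rw [rt_eq_rho]
  exact congrArg (fun L : Ell2 Λ →L[ℂ] Ell2 Λ => L ξ) (LG_comm_rho ((inL_iff T).mp hT) s⁻¹)

theorem tight_const_dl : H350.Tight {ξ : Ell2 Λ | ∃ (t : Λ) (z : Circle), ξ = (z : ℂ) • dl t} := by
  classical
  intro ε hε
  refine ⟨1, ?_⟩
  rintro _ ⟨t, z, rfl⟩
  refine ⟨{t}, (z : ℂ) • dl t, by simp, fun x hx => ?_, by rw [sub_self, norm_zero]; exact hε.le⟩
  rw [Finset.mem_singleton] at hx
  rw [lp.coeFn_smul, Pi.smul_apply, H350.dl_apply, if_neg hx, smul_zero]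

/-- The converse: the fourth power sums of a canonical isomorphism are bounded below. -/
theorem lower_of_canonical
    (hΓ : ∀ g : Γ, g ≠ 1 → Set.Infinite {y : Γ | ∃ h, y = h * g * h⁻¹})
    (θ : St.StarIso Γ Λ) (h : St.Canonical θ) :
    ∃ c : ℝ, 0 < c ∧ ∀ g, c ≤ fourth (θ.toFun (St.u g)) := by
  obtain ⟨δ, χ, w, w', hw, hadj, h1, h2, h3⟩ := h
  have hF := frame_of_iso hΓ (toAlg θ)
  set B : Set (Ell2 Λ →L[ℂ] Ell2 Λ) := {T | ∃ (t : Λ) (z : Circle), T = (z : ℂ) • lam t} with hB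
  have hRC : ∀ b ∈ B, H350.RC b := by
    rintro _ ⟨t, z, rfl⟩ s ξ
    rw [rt_eq_rho]
    change (z : ℂ) • lam t (rho s⁻¹ ξ) = rho s⁻¹ ((z : ℂ) • lam t ξ)
    rw [map_smul]
    congr 1
    exact congrArg (fun L : Ell2 Λ →L[ℂ] Ell2 Λ => L ξ) (rho_lam s⁻¹ t).symm
  have hC : ∀ b ∈ B, ‖b‖ ≤ 1 := by
    rintro _ ⟨t, z, rfl⟩
    refine opNorm_le_bound _ zero_le_one fun ξ => ?_
    change ‖(z : ℂ) • lam t ξ‖ ≤ _
    rw [norm_smul, Circle.norm_coe, one_mul, one_mul, norm_lam]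
  have hBt : H350.Tight ((fun b : Ell2 Λ →L[ℂ] Ell2 Λ => b (dl 1)) '' B) := by
    refine H350.Tight.mono ?_ tight_const_dl
    rintro _ ⟨_, ⟨t, z, rfl⟩, rfl⟩
    refine ⟨t, z, ?_⟩
    change (z : ℂ) • lam t (dl 1) = _
    rw [lam_dl, mul_one]
  have ht1 : H350.Tight {ζ : Ell2 Λ | ∃ b ∈ B, ζ = b (w' (dl 1))} := by
    refine H350.Tight.op hRC hC hBt (S := {w' (dl 1)}) (M := ‖w' (dl 1)‖) ?_
      (H350.tight_singleton _) ?_
    · rintro _ rfl; exact le_rfl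
    · rintro _ ⟨b, hb, rfl⟩
      exact ⟨b, hb, _, rfl, rfl⟩
  have ht2 : H350.Tight (Set.range fun g : Γ => alphaOf (toAlg θ) g (dl 1)) := by
    refine H350.GoodRep.tight_map (T := w) (RC_of_inL hw) (M := ‖w' (dl 1)‖) ?_ ht1 ?_
    · rintro _ ⟨b, hb, rfl⟩
      calc ‖b (w' (dl 1))‖ ≤ ‖b‖ * ‖w' (dl 1)‖ := le_opNorm _ _
        _ ≤ 1 * ‖w' (dl 1)‖ := by gcongr; exact hC b hb
        _ = _ := one_mul _
    · rintro _ ⟨g, rfl⟩
      refine ⟨((χ g : ℂ) • lam (δ g) : Ell2 Λ →L[ℂ] Ell2 Λ) (w' (dl 1)), ⟨_, ⟨δ g, χ g, rfl⟩, rfl⟩, ?_⟩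
      change θ.toFun (St.u g) (dl 1) = w ((χ g : ℂ) • lam (δ g) (w' (dl 1)))
      rw [map_smul]
      exact h3 g (dl 1)
  obtain ⟨c, hc, hp⟩ := p4_of_tight hF ht2
  exact ⟨c, hc, fun g => by rw [fourth_theta]; exact hp g⟩

end Vale.Agent.P092.H885
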