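import Vale.Agent.P092.H885.Soft

/-!
Decay of two-sided translates of coefficients: a general form for invariant subspaces with a gap,
and a soft form.
-/

set_option linter.all false

open scoped InnerProductSpace
open Filter Topology ContinuousLinearMap

namespace Vale.Agent.P092.H885

variable {Γ : Type} [Group Γ] {H : Type} [NormedAddCommGroup H] [InnerProductSpace ℂ H]
    [CompleteSpace H] {π : Γ →* (H →L[ℂ] H)}

variable (hπ : ∀ g, adjoint (π g) = π g⁻¹)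

include hπ

/-- the value of the iterated average of a translated coefficient -/
theorem avg_translate (Q : Finset Γ) (ξ : H) (a b : Γ) (n : ℕ) :
    (avg Q)^[n] (fun g => (⟪ξ, π (a * g * b) ξ⟫_ℂ).re) 1 =
      (⟪π a⁻¹ ξ, (av π Q)^[n] (π b ξ)⟫_ℂ).re := by
  have h1 : (fun g => (⟪ξ, π (a * g * b) ξ⟫_ℂ).re) =
      fun g => (⟪π a⁻¹ ξ, π g (π b ξ)⟫_ℂ).re := by
    funext g
    rw [map_mul, map_mul]
    change (⟪ξ, π a (π g (π b ξ))⟫_ℂ).re = _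
    rw [u_left hπ, inv_inv]
  rw [h1, avg_iter]
  have h3 : π 1 ((av π Q)^[n] (π b ξ)) = (av π Q)^[n] (π b ξ) := by rw [map_one]; rfl
  change (⟪π a⁻¹ ξ, π 1 ((av π Q)^[n] (π b ξ))⟫_ℂ).re = _
  rw [h3]

theorem gap_quad {Q : Finset Γ} {ε : ℝ} (hε : 0 ≤ ε) (hQ : Q.Nonempty) {v : H}
    (h : ∃ s ∈ Q, ε * ‖v‖ ≤ ‖π s v - v‖) :
    (⟪v, av π Q v⟫_ℂ).re ≤ (1 - ε ^ 2 / (4 * Q.card)) * ‖v‖ ^ 2 := by
  have hm : (0 : ℝ) < Q.card := by exact_mod_cast hQ.card_pos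
  rw [av_quad hπ Q hQ]
  obtain ⟨s, hs, h1⟩ := h
  have h2 : (ε * ‖v‖) ^ 2 ≤ ∑ s ∈ Q, ‖π s v - v‖ ^ 2 := by
    refine (pow_le_pow_left₀ (by positivity) h1 2).trans ?_
    exact Finset.single_le_sum (f := fun s => ‖π s v - v‖ ^ 2) (fun _ _ => by positivity) hs
  have h3 : (ε * ‖v‖) ^ 2 / (4 * Q.card) ≤ (∑ s ∈ Q, ‖π s v - v‖ ^ 2) / (4 * Q.card) := by
    gcongr
  calc _ ≤ ‖v‖ ^ 2 - (ε * ‖v‖) ^ 2 / (4 * Q.card) := by linarith
    _ = _ := by ring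

/-- Exponential decay on an invariant subspace with a gap. -/
theorem gap_norm {Q : Finset Γ} {ε : ℝ} (hε : 0 ≤ ε) (hQ : Q.Nonempty) (K : Submodule ℂ H)
    (hK : ∀ g, ∀ v ∈ K, π g v ∈ K) (gap : ∀ v ∈ K, ∃ s ∈ Q, ε * ‖v‖ ≤ ‖π s v - v‖) {w : H}
    (hw : w ∈ K) (n : ℕ) : ‖(av π Q)^[n] w‖ ≤ (1 - ε ^ 2 / (4 * Q.card)) ^ n * ‖w‖ := by
  set ρ := 1 - ε ^ 2 / (4 * (Q.card : ℝ)) with hρ
  have hKav : ∀ v ∈ K, av π Q v ∈ K := fun v hv =>
    Submodule.add_mem _ (Submodule.smul_mem _ _ hv) (Submodule.smul_mem _ _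
      (Submodule.sum_mem _ fun s _ => Submodule.add_mem _ (hK s v hv) (hK s⁻¹ v hv)))
  rcases eq_or_ne w 0 with rfl | hw0
  · have h0 : av π Q (0 : H) = 0 := by simp [av]
    rw [Function.iterate_fixed h0, norm_zero, mul_zero]
  have hρ0 : 0 ≤ ρ := by
    have h3 := gap_quad hπ hε hQ (gap w hw)
    have h4 := av_nonneg hπ Q hQ w
    have h5 : 0 < ‖w‖ ^ 2 := by have := norm_pos_iff.mpr hw0; positivity
    by_contra hneg
    push Not at hneg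
    nlinarith
  have key : ∀ n : ℕ, (av π Q)^[n] w ∈ K ∧ ‖(av π Q)^[n] w‖ ≤ ρ ^ n * ‖w‖ := by
    intro n
    induction n with
    | zero => exact ⟨hw, by simp⟩
    | succ n ih =>
      rw [Function.iterate_succ_apply']
      refine ⟨hKav _ ih.1, ?_⟩
      have h3 := av_norm_le hπ Q hQ hρ0 ((av π Q)^[n] w) (gap_quad hπ hε hQ (gap _ ih.1))
        (gap_quad hπ hε hQ (gap _ (hKav _ ih.1)))
      calc _ ≤ ρ * ‖(av π Q)^[n] w‖ := h3
        _ ≤ ρ * (ρ ^ n * ‖w‖) := by gcongr; exact ih.2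
        _ = ρ ^ (n + 1) * ‖w‖ := by ring
  exact (key n).2

theorem gap_coeff {Q : Finset Γ} {ε : ℝ} (hε : 0 ≤ ε) (hQ : Q.Nonempty) (K : Submodule ℂ H)
    (hK : ∀ g, ∀ v ∈ K, π g v ∈ K) (gap : ∀ v ∈ K, ∃ s ∈ Q, ε * ‖v‖ ≤ ‖π s v - v‖) {ξ : H}
    (hξ : ξ ∈ K) (h1 : ‖ξ‖ = 1) (a b : Γ) (n : ℕ) :
    (avg Q)^[n] (fun g => (⟪ξ, π (a * g * b) ξ⟫_ℂ).re) 1 ≤ (1 - ε ^ 2 / (4 * Q.card)) ^ n := by
  rw [avg_translate hπ]
  calc _ ≤ ‖⟪π a⁻¹ ξ, (av π Q)^[n] (π b ξ)⟫_ℂ‖ := Complex.re_le_norm _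
    _ ≤ ‖π a⁻¹ ξ‖ * ‖(av π Q)^[n] (π b ξ)‖ := norm_inner_le_norm _ _
    _ ≤ 1 * ((1 - ε ^ 2 / (4 * Q.card)) ^ n * 1) := by
        rw [u_norm hπ, h1]
        have := gap_norm hπ hε hQ K hK gap (hK b ξ hξ) n
        rw [u_norm hπ, h1] at this
        linarith
    _ = _ := by ring

theorem gap_one {Q : Finset Γ} {ε : ℝ} (hε : 0 ≤ ε) {ξ : H}
    (gap : ∃ s ∈ Q, ε * ‖ξ‖ ≤ ‖π s ξ - ξ‖) (h1 : ‖ξ‖ = 1) :
    ∃ s ∈ Q, (⟪ξ, π s ξ⟫_ℂ).re ≤ 1 - ε ^ 2 / 2 := by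
  obtain ⟨s, hs, h2⟩ := gap
  refine ⟨s, hs, ?_⟩
  rw [h1, mul_one] at h2
  have h3 := norm_sub_sq (𝕜 := ℂ) (π s ξ) ξ
  rw [u_norm hπ, h1] at h3
  have h4 : (⟪π s ξ, ξ⟫_ℂ).re = (⟪ξ, π s ξ⟫_ℂ).re := by
    rw [← inner_conj_symm, Complex.conj_re]
  have h5 : ‖π s ξ - ξ‖ ^ 2 = 1 ^ 2 - 2 * (⟪π s ξ, ξ⟫_ℂ).re + 1 ^ 2 := h3
  have h6 : ε ^ 2 ≤ ‖π s ξ - ξ‖ ^ 2 := pow_le_pow_left₀ hε h2 2
  rw [h5, h4] at h6
  linarith

/-- The iterated averages of a vector orthogonal to the invariant vectors tend to zero. -/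
theorem soft_norm {Q : Finset Γ} (hQ : Q.Nonempty) (hgen : Subgroup.closure (Q : Set Γ) = ⊤)
    {ξ : H} (hξ : ∀ η, (∀ g, π g η = η) → ⟪η, ξ⟫_ℂ = 0) :
    Tendsto (fun n : ℕ => (av π Q)^[n] ξ) atTop (𝓝 0) := by
  set x : ℕ → H := fun n => (av π Q)^[n] ξ with hx
  set a : ℕ → ℝ := fun n => (⟪ξ, x n⟫_ℂ).re with ha
  have hxs : ∀ n, x (n + 1) = av π Q (x n) := fun n => Function.iterate_succ_apply' _ _ _
  have hpair : ∀ m n, ⟪x m, x n⟫_ℂ = ⟪ξ, x (m + n)⟫_ℂ := by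
    intro m n
    have h1 : x (m + n) = (av π Q)^[m] (x n) := Function.iterate_add_apply _ _ _ _
    rw [h1]
    exact av_pair hπ Q _ _ _
  have heven : ∀ k, a (k + k) = ‖x k‖ ^ 2 := by
    intro k
    have h1 := hpair k k
    rw [inner_self_eq_norm_sq_to_K] at h1
    change (⟪ξ, x (k + k)⟫_ℂ).re = _
    rw [← h1]
    have h5 : ((‖x k‖ : ℂ)) ^ 2 = ((‖x k‖ ^ 2 : ℝ) : ℂ) := by push_cast; rfl
    change (((‖x k‖ : ℂ)) ^ 2).re = _
    rw [h5, Complex.ofReal_re]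
  have hodd : ∀ k, a (k + (k + 1)) = (⟪x k, av π Q (x k)⟫_ℂ).re := by
    intro k
    rw [← hxs, hpair]
  have hdec : ∀ n, a (n + 1) ≤ a n := by
    intro n
    rcases Nat.even_or_odd' n with ⟨k, rfl | rfl⟩
    · have e1 : 2 * k + 1 = k + (k + 1) := by ring
      rw [e1, hodd, two_mul, heven]
      exact av_le hπ Q hQ _
    · have e1 : 2 * k + 1 + 1 = (k + 1) + (k + 1) := by ring
      have e2 : 2 * k + 1 = k + (k + 1) := by ring
      rw [e1, e2, hodd, heven, hxs]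
      exact av_sq hπ Q hQ _
  have hanti : Antitone a := antitone_nat_of_succ_le hdec
  have hnn : ∀ n, 0 ≤ a n := by
    intro n
    have h1 : a (n + n) ≤ a n := hanti (by omega)
    rw [heven] at h1
    exact (by positivity : (0 : ℝ) ≤ ‖x n‖ ^ 2).trans h1
  have hbdd : BddBelow (Set.range a) := ⟨0, by rintro _ ⟨n, rfl⟩; exact hnn n⟩
  have hlim := tendsto_atTop_ciInf hanti hbdd
  have hdist : ∀ m n, m ≤ n → ‖x n - x m‖ ^ 2 ≤ a (m + m) - a (n + n) := by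
    intro m n hmn
    have h1 := norm_sub_sq (𝕜 := ℂ) (x n) (x m)
    have h2 : (⟪x n, x m⟫_ℂ).re = a (n + m) := by rw [hpair]
    have h3 : ‖x n - x m‖ ^ 2 = ‖x n‖ ^ 2 - 2 * (⟪x n, x m⟫_ℂ).re + ‖x m‖ ^ 2 := h1
    rw [h3, h2, ← heven, ← heven]
    have h4 : a (n + n) ≤ a (n + m) := hanti (by omega)
    linarith
  have hcau : CauchySeq x := by
    rw [Metric.cauchySeq_iff']
    intro ε hε
    have h1 : Tendsto (fun n => a (n + n)) atTop (𝓝 (⨅ i, a i)) :=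
      hlim.comp (tendsto_atTop_mono (fun n => Nat.le_add_right n n) tendsto_id)
    have h2 := h1.eventually (gt_mem_nhds (show (⨅ i, a i) < (⨅ i, a i) + ε ^ 2 by
      have : 0 < ε ^ 2 := by positivity
      linarith))
    obtain ⟨N, hN⟩ := h2.exists
    refine ⟨N, fun n hn => ?_⟩
    rw [dist_eq_norm]
    have h3 := hdist N n hn
    have h4 : (⨅ i, a i) ≤ a (n + n) := ciInf_le hbdd _
    have h5 : ‖x n - x N‖ ^ 2 < ε ^ 2 := by linarith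
    exact lt_of_pow_lt_pow_left₀ 2 hε.le h5
  obtain ⟨η, hη⟩ := cauchySeq_tendsto_of_complete hcau
  have hfix : av π Q η = η := by
    have h1 : Tendsto (fun n => x (n + 1)) atTop (𝓝 η) := hη.comp (tendsto_add_atTop_nat 1)
    have h2 : Tendsto (fun n => av π Q (x n)) atTop (𝓝 (av π Q η)) :=
      ((av_cont Q).tendsto η).comp hη
    simp only [hxs] at h1
    exact tendsto_nhds_unique h2 h1
  have hQfix : ∀ s ∈ Q, π s η = η := by
    have h1 := av_quad hπ Q hQ η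
    rw [hfix, inner_self_eq_norm_sq_to_K] at h1
    have h5 : ((‖η‖ : ℂ)) ^ 2 = ((‖η‖ ^ 2 : ℝ) : ℂ) := by push_cast; rfl
    have h6 : (((‖η‖ : ℂ)) ^ 2).re = ‖η‖ ^ 2 - (∑ s ∈ Q, ‖π s η - η‖ ^ 2) / (4 * Q.card) := h1
    rw [h5, Complex.ofReal_re] at h6
    have hm : (0 : ℝ) < Q.card := by exact_mod_cast hQ.card_pos
    have h7 : (∑ s ∈ Q, ‖π s η - η‖ ^ 2) / (4 * Q.card) = 0 := by linarith
    have h8 : ∑ s ∈ Q, ‖π s η - η‖ ^ 2 = 0 := by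
      rcases div_eq_zero_iff.mp h7 with h | h
      · exact h
      · exact absurd h (mul_ne_zero four_ne_zero hm.ne')
    intro s hs
    have h9 := (Finset.sum_eq_zero_iff_of_nonneg (fun _ _ => by positivity)).mp h8 s hs
    have h10 : ‖π s η - η‖ = 0 := (pow_eq_zero_iff two_ne_zero).mp h9
    exact sub_eq_zero.mp (norm_eq_zero.mp h10)
  have hall : ∀ g, π g η = η := by
    intro g
    have hg : g ∈ Subgroup.closure (Q : Set Γ) := by rw [hgen]; trivial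
    induction hg using Subgroup.closure_induction with
    | mem s hs => exact hQfix s hs
    | one => rw [map_one]; rfl
    | mul g h _ _ ihg ihh =>
      rw [map_mul]
      change π g (π h η) = η
      rw [ihh, ihg]
    | inv g _ ih =>
      have h1 := u_inv hπ g η
      rwa [ih] at h1
  have hmem : ∀ n, x n ∈ (invSub π)ᗮ := by
    intro n
    induction n with
    | zero => exact (Submodule.mem_orthogonal _ _).mpr fun η hη => hξ η hη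
    | succ n ih => rw [hxs]; exact orth_av hπ Q ih
  have hη0 : η = 0 := by
    have h1 : η ∈ invSub π := hall
    have h2 : Tendsto (fun n => ⟪η, x n⟫_ℂ) atTop (𝓝 ⟪η, η⟫_ℂ) := tendsto_const_nhds.inner hη
    have h3 : ∀ n, ⟪η, x n⟫_ℂ = 0 := fun n => (Submodule.mem_orthogonal _ _).mp (hmem n) η h1
    simp only [h3] at h2
    exact inner_self_eq_zero.mp (tendsto_nhds_unique h2 tendsto_const_nhds)
  rw [hη0] at hη
  exact hη

theorem soft_coeff {Q : Finset Γ} (hQ : Q.Nonempty) (hgen : Subgroup.closure (Q : Set Γ) = ⊤)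
    {ξ : H} (hξ : ∀ η, (∀ g, π g η = η) → ⟪η, ξ⟫_ℂ = 0) (a b : Γ) :
    Tendsto (fun n : ℕ => (avg Q)^[n] (fun g => (⟪ξ, π (a * g * b) ξ⟫_ℂ).re) 1) atTop (𝓝 0) := by
  have h1 : ξ ∈ (invSub π)ᗮ := (Submodule.mem_orthogonal _ _).mpr fun η hη => hξ η hη
  have h2 := orth_map hπ b h1
  have h3 := soft_norm hπ hQ hgen (ξ := π b ξ)
    (fun η hη => (Submodule.mem_orthogonal _ _).mp h2 η hη)
  have h4 : Tendsto (fun n : ℕ => (⟪π a⁻¹ ξ, (av π Q)^[n] (π b ξ)⟫_ℂ).re) atTop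
      (𝓝 (⟪π a⁻¹ ξ, (0 : H)⟫_ℂ).re) :=
    (Complex.continuous_re.tendsto _).comp (tendsto_const_nhds.inner h3)
  rw [inner_zero_right, Complex.zero_re] at h4
  refine h4.congr fun n => ?_
  rw [avg_translate hπ]

end Vale.Agent.P092.H885
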