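import Vale.Agent.P092.H885.Torus

/-!
The explicit functions on the two-torus (conical functions near zero).
-/

set_option linter.all false

open scoped InnerProductSpace ComplexConjugate
open Filter Topology ContinuousLinearMap

namespace Vale.Agent.P092.H885

theorem T1.rep (y : T1) : ∃ t : ℝ, (t : T1) = y ∧ |t| = ‖y‖ ∧ |t| ≤ 1 / 2 := by
  obtain ⟨x, rfl⟩ := QuotientAddGroup.mk_surjective y
  refine ⟨x - round x, ?_, ?_, abs_sub_round x⟩
  · change ((x - (round x : ℝ) : ℝ) : T1) = (x : T1)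
    rw [AddCircle.coe_sub, sub_eq_self]
    have h := AddCircle.coe_period (1 : ℝ)
    have h1 : ((round x : ℝ) : T1) = (round x) • ((1 : ℝ) : T1) := by
      rw [← AddCircle.coe_zsmul]; congr 1; simp
    rw [h1, h, smul_zero]
  · exact (UnitAddCircle.norm_eq (x := x)).symm

theorem T1.norm_zsmul (y : T1) (m : ℕ) (h : (m : ℝ) * ‖y‖ ≤ 1 / 2) : ‖m • y‖ = m * ‖y‖ := by
  obtain ⟨t, rfl, h1, h2⟩ := T1.rep y
  rw [← h1] at h ⊢
  rw [← AddCircle.coe_nsmul]
  have h3 : |m • t| = m * |t| := by rw [nsmul_eq_mul, abs_mul, Nat.abs_cast]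
  rw [← h3, AddCircle.norm_coe_eq_abs_iff (1 : ℝ) one_ne_zero, h3, abs_one]
  exact h

theorem T1.chord (y : T1) : 4 * ‖y‖ ≤ ‖((AddCircle.toCircle y : Circle) : ℂ) - 1‖ ∧
    ‖((AddCircle.toCircle y : Circle) : ℂ) - 1‖ ≤ 2 * Real.pi * ‖y‖ := by
  obtain ⟨t, rfl, h1, h2⟩ := T1.rep y
  rw [← h1, AddCircle.toCircle_apply_mk, Circle.coe_exp]
  have e1 : Complex.exp ((2 * Real.pi / 1 * t : ℝ) * Complex.I) - 1 =
      Complex.exp (Complex.I * ((2 * Real.pi * t : ℝ) : ℂ)) - 1 := by
    congr 2; push_cast; ring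
  rw [e1, Complex.norm_exp_I_mul_ofReal_sub_one]
  have e2 : 2 * Real.pi * t / 2 = Real.pi * t := by ring
  rw [e2, norm_mul, Real.norm_eq_abs, Real.norm_eq_abs, abs_two]
  have e3 : |Real.sin (Real.pi * t)| = Real.sin (Real.pi * |t|) := by
    have hpt : Real.pi * |t| = |Real.pi * t| := by rw [abs_mul, abs_of_pos Real.pi_pos]
    rw [hpt]
    rcases le_total 0 (Real.pi * t) with h | h
    · rw [abs_of_nonneg h, abs_of_nonneg]
      refine Real.sin_nonneg_of_nonneg_of_le_pi h ?_
      calc Real.pi * t ≤ Real.pi * |t| := by gcongr; exact le_abs_self t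
        _ ≤ Real.pi * 1 := by gcongr; linarith
        _ = Real.pi := mul_one _
    · rw [abs_of_nonpos h, Real.sin_neg, abs_of_nonpos]
      refine Real.sin_nonpos_of_nonpos_of_neg_pi_le h ?_
      have : -(Real.pi * t) ≤ Real.pi := by
        calc -(Real.pi * t) ≤ |Real.pi * t| := neg_le_abs _
          _ = Real.pi * |t| := hpt.symm
          _ ≤ Real.pi * 1 := by gcongr; linarith
          _ = Real.pi := mul_one _
      linarith
  rw [e3]
  constructor
  · have h3 := Real.mul_le_sin (x := Real.pi * |t|) (by positivity) (by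
      calc Real.pi * |t| ≤ Real.pi * (1 / 2) := by gcongr
        _ = Real.pi / 2 := by ring)
    have h4 : 2 / Real.pi * (Real.pi * |t|) = 2 * |t| := by
      field_simp
    rw [h4] at h3
    linarith
  · have h3 := Real.sin_le (x := Real.pi * |t|) (by positivity)
    linarith

/-- clamping to `[0, 1]` -/
noncomputable def cl (t : ℝ) : ℝ := max 0 (min 1 t)

theorem cl_nonneg (t : ℝ) : 0 ≤ cl t := le_max_left _ _
theorem cl_le_one (t : ℝ) : cl t ≤ 1 := max_le zero_le_one (min_le_left _ _)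
theorem cl_mono {s t : ℝ} (h : s ≤ t) : cl s ≤ cl t := max_le_max le_rfl (min_le_min le_rfl h)
theorem cl_of_one_le {t : ℝ} (h : 1 ≤ t) : cl t = 1 := by
  rw [cl, min_eq_left h, max_eq_right zero_le_one]
theorem cl_of_nonpos {t : ℝ} (h : t ≤ 0) : cl t = 0 := by
  rw [cl, min_eq_right (h.trans zero_le_one), max_eq_left h]
theorem cl_cont : Continuous cl := by
  unfold cl; fun_prop

/-- the conical function of two lengths -/
noncomputable def cone (δ a b : ℝ) : ℝ := cl ((2 * a - b) / max a δ)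

theorem cone_cont {δ : ℝ} (hδ : 0 < δ) {X : Type} [TopologicalSpace X] {f g : X → ℝ}
    (hf : Continuous f) (hg : Continuous g) : Continuous fun x => cone δ (f x) (g x) := by
  unfold cone
  refine cl_cont.comp ?_
  refine Continuous.div (by fun_prop) (by fun_prop) fun x => ?_
  exact (lt_of_lt_of_le hδ (le_max_right _ _)).ne'

theorem cone_zero {δ a b : ℝ} (hδ : 0 < δ) (h : 2 * a ≤ b) : cone δ a b = 0 := by
  refine cl_of_nonpos (div_nonpos_of_nonpos_of_nonneg (by linarith) ?_)
  exact (lt_of_lt_of_le hδ (le_max_right _ _)).le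

/-- comparison of the cones -/
theorem cone_le {δ a b c m : ℝ} (hδ : 0 < δ) (hm : 3 ≤ m) (ha : 0 ≤ a) (hb : 0 ≤ b)
    (hbc : m * b - c ≤ a) (hcb : c ≤ 2 * b) (hc : 0 ≤ c) : cone δ b c ≤ cone δ a b := by
  have hba : b ≤ a := by nlinarith
  rcases le_total δ a with h | h
  · have h0 : 0 < a := lt_of_lt_of_le hδ h
    have h1 : cone δ a b = 1 := by
      refine cl_of_one_le ?_
      rw [max_eq_left h, le_div_iff₀ h0]
      linarith
    rw [h1]
    exact cl_le_one _
  · refine cl_mono ?_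
    rw [max_eq_right h, max_eq_right (hba.trans h)]
    refine div_le_div_of_nonneg_right ?_ hδ.le
    nlinarith

/-- The main pointwise inequality. -/
theorem cone_ineq {δ : ℝ} (hδ : 0 < δ) {m : ℕ} (hm : 3 ≤ m) (x y : T1) :
    cone δ ‖y‖ ‖x - m • y‖ + cone δ ‖y‖ ‖x + m • y‖ ≤
      cone δ ‖x‖ ‖y‖ + 2 * (4 * m * ‖y‖) ^ 2 := by
  have hm' : (3 : ℝ) ≤ m := by exact_mod_cast hm
  have hy := norm_nonneg y
  have hx := norm_nonneg x
  have h1 := norm_nonneg (x - m • y)
  have h2 := norm_nonneg (x + m • y)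
  by_cases hbig : 1 ≤ 4 * m * ‖y‖
  · have e1 : cone δ ‖y‖ ‖x - m • y‖ ≤ 1 := cl_le_one _
    have e2 : cone δ ‖y‖ ‖x + m • y‖ ≤ 1 := cl_le_one _
    have e3 : 0 ≤ cone δ ‖x‖ ‖y‖ := cl_nonneg _
    nlinarith
  · push Not at hbig
    have n1 : ‖m • y‖ = m * ‖y‖ := T1.norm_zsmul y m (by linarith)
    have n2 : ‖(2 * m) • y‖ = (2 * m : ℕ) * ‖y‖ := T1.norm_zsmul y (2 * m) (by push_cast; linarith)
    have t1 : ‖m • y‖ ≤ ‖x‖ + ‖x - m • y‖ := by
      have := norm_sub_le x (x - m • y)
      rwa [sub_sub_cancel] at this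
    have t2 : ‖m • y‖ ≤ ‖x‖ + ‖x + m • y‖ := by
      have := norm_sub_le (x + m • y) x
      rw [add_sub_cancel_left] at this
      linarith
    have t3 : ‖(2 * m) • y‖ ≤ ‖x - m • y‖ + ‖x + m • y‖ := by
      have := norm_sub_le (x + m • y) (x - m • y)
      have e : x + m • y - (x - m • y) = (2 * m) • y := by rw [mul_smul, two_smul]; abel
      rw [e] at this
      linarith
    rw [n1] at t1 t2
    rw [n2] at t3
    push_cast at t3
    have e0 : 0 ≤ 2 * (4 * m * ‖y‖) ^ 2 := by positivity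
    have e3 : 0 ≤ cone δ ‖x‖ ‖y‖ := cl_nonneg _
    rcases le_total (2 * ‖y‖) ‖x - m • y‖ with c1 | c1
    · rw [cone_zero hδ c1, zero_add]
      rcases le_total (2 * ‖y‖) ‖x + m • y‖ with c2 | c2
      · rw [cone_zero hδ c2]; linarith
      · have := cone_le (δ := δ) (a := ‖x‖) (b := ‖y‖) (c := ‖x + m • y‖) hδ hm' hx hy
          (by linarith) c2 h2
        linarith
    · rcases le_total (2 * ‖y‖) ‖x + m • y‖ with c2 | c2
      · rw [cone_zero hδ c2, add_zero]
        have := cone_le (δ := δ) (a := ‖x‖) (b := ‖y‖) (c := ‖x - m • y‖) hδ hm' hx hy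
          (by linarith) c1 h1
        linarith
      · have hy0 : ‖y‖ = 0 := by
          by_contra hne
          have : 0 < ‖y‖ := lt_of_le_of_ne hy (Ne.symm hne)
          nlinarith
        have z1 : cone δ ‖y‖ ‖x - m • y‖ = 0 := cone_zero hδ (by rw [hy0]; linarith)
        have z2 : cone δ ‖y‖ ‖x + m • y‖ = 0 := cone_zero hδ (by rw [hy0]; linarith)
        rw [z1, z2]; linarith

/-- bump at zero -/
noncomputable def bump (δ a b : ℝ) : ℝ := cl (2 - max a b / δ)

theorem bump_cont {δ : ℝ} {X : Type} [TopologicalSpace X] {f g : X → ℝ}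
    (hf : Continuous f) (hg : Continuous g) : Continuous fun x => bump δ (f x) (g x) := by
  unfold bump
  exact cl_cont.comp (by fun_prop)

theorem cone_sum {δ : ℝ} (hδ : 0 < δ) {a b : ℝ} (ha : 0 ≤ a) (hb : 0 ≤ b) :
    1 ≤ cone δ a b + cone δ b a + bump δ a b := by
  have h1 : 0 ≤ cone δ a b := cl_nonneg _
  have h2 : 0 ≤ cone δ b a := cl_nonneg _
  have h3 : 0 ≤ bump δ a b := cl_nonneg _
  rcases le_total δ (max a b) with h | h
  · rcases le_total a b with hab | hab
    · rw [max_eq_right hab] at h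
      have : cone δ b a = 1 := by
        refine cl_of_one_le ?_
        rw [max_eq_left h, le_div_iff₀ (by linarith)]
        linarith
      linarith
    · rw [max_eq_left hab] at h
      have : cone δ a b = 1 := by
        refine cl_of_one_le ?_
        rw [max_eq_left h, le_div_iff₀ (by linarith)]
        linarith
      linarith
  · have : bump δ a b = 1 := by
      refine cl_of_one_le ?_
      have : max a b / δ ≤ 1 := (div_le_one hδ).mpr h
      linarith
    linarith

theorem bump_mono {δ δ' a b : ℝ} (hδ : 0 < δ) (h : δ ≤ δ') (ha : 0 ≤ a) :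
    bump δ a b ≤ bump δ' a b := by
  refine cl_mono ?_
  have : max a b / δ' ≤ max a b / δ := by
    have h0 : 0 ≤ max a b := ha.trans (le_max_left _ _)
    gcongr
  linarith

theorem bump_supp {δ a b : ℝ} (hδ : 0 < δ) : max a b * bump δ a b ≤ 2 * δ := by
  rcases le_total (2 * δ) (max a b) with h | h
  · have : bump δ a b = 0 := by
      refine cl_of_nonpos ?_
      have : 2 ≤ max a b / δ := by rw [le_div_iff₀ hδ]; exact h
      linarith
    rw [this, mul_zero]; linarith
  · rcases le_total 0 (max a b) with h0 | h0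
    · calc max a b * bump δ a b ≤ max a b * 1 := by gcongr; exact cl_le_one _
        _ ≤ _ := by linarith
    · have : max a b * bump δ a b ≤ 0 := mul_nonpos_of_nonpos_of_nonneg h0 (cl_nonneg _)
      linarith

end Vale.Agent.P092.H885
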