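import Vale.Agent.P092.H885.SLn

/-!
Assembly of the two dichotomies.
-/

set_option linter.all false

open scoped InnerProductSpace
open Filter Topology ContinuousLinearMap

namespace Vale.Agent.P092.H885

open Vale.Agent.P092.H160

section ICC

variable {Γ Λ : Type} [Group Γ] [Group Λ]

theorem fourth_coeff (θ : St.StarIso Γ Λ) (hF : Frame (alphaOf (toAlg θ))) (g : Γ) :
    fourth (θ.toFun (St.u g)) =
      (⟪(dl 1 : Ell2 (Λ × Λ × Λ)), pr hF g (dl 1)⟫_ℂ).re := by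
  rw [pr_coeff, Complex.ofReal_re, fourth_theta]

theorem norm_dl3 : ‖(dl 1 : Ell2 (Λ × Λ × Λ))‖ = 1 := norm_dl 1

/-- Canonical, or orthogonality to the invariant vectors. -/
theorem orth_of_not_canonical
    (hΓ : ∀ g : Γ, g ≠ 1 → Set.Infinite {y : Γ | ∃ h, y = h * g * h⁻¹})
    (θ : St.StarIso Γ Λ) (hnc : ¬ St.Canonical θ) :
    ∀ η : Ell2 (Λ × Λ × Λ), (∀ g, pr (frame_of_iso hΓ (toAlg θ)) g η = η) →
      ⟪η, dl 1⟫_ℂ = 0 := by
  rcases canon_or_orth (frame_of_iso hΓ (toAlg θ)) hΓ with h | h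
  · exact absurd (canonical_iff θ (canonical_of_form (toAlg θ) h)) hnc
  · exact h

theorem icc_soft (hΓ : ∀ g : Γ, g ≠ 1 → Set.Infinite {y : Γ | ∃ h, y = h * g * h⁻¹})
    (θ : St.StarIso Γ Λ) (hnc : ¬ St.Canonical θ) {Q : Finset Γ} (hQ : Q.Nonempty)
    (hgen : Subgroup.closure (Q : Set Γ) = ⊤) (a b : Γ) :
    Tendsto (fun k : ℕ => (avg Q)^[k] (fun g => fourth (θ.toFun (St.u (a * g * b)))) 1)
      atTop (𝓝 0) := by
  have hF := frame_of_iso hΓ (toAlg θ)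
  simp only [fourth_coeff θ hF]
  exact soft_coeff (pr_adj hF) hQ hgen (orth_of_not_canonical hΓ θ hnc) a b

theorem icc_kazhdan (hΓ : ∀ g : Γ, g ≠ 1 → Set.Infinite {y : Γ | ∃ h, y = h * g * h⁻¹})
    (θ : St.StarIso Γ Λ) (hnc : ¬ St.Canonical θ) {Q : Finset Γ} {ε : ℝ}
    (hK : IsKazhdanPair Γ Q ε) :
    (∃ s ∈ Q, fourth (θ.toFun (St.u s)) ≤ 1 - ε ^ 2 / 2) ∧ ∀ (a b : Γ) (k : ℕ),
      (avg Q)^[k] (fun g => fourth (θ.toFun (St.u (a * g * b)))) 1 ≤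
        (1 - ε ^ 2 / (4 * Q.card)) ^ k := by
  have hF := frame_of_iso hΓ (toAlg θ)
  have horth := orth_of_not_canonical hΓ θ hnc
  have hπ := pr_adj hF
  have hmem : (dl 1 : Ell2 (Λ × Λ × Λ)) ∈ (invSub (pr hF))ᗮ :=
    (Submodule.mem_orthogonal _ _).mpr fun η hη => horth η hη
  have hgap : ∀ v ∈ (invSub (pr hF))ᗮ, ∃ s ∈ Q, ε * ‖v‖ ≤ ‖pr hF s v - v‖ :=
    fun v hv => kazhdan_moves hπ hK hv
  obtain ⟨s, hs, -⟩ := hgap _ hmem
  simp only [fourth_coeff θ hF]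
  exact ⟨gap_one hπ hK.1.le (hgap _ hmem) norm_dl3, fun a b k =>
    gap_coeff hπ hK.1.le ⟨s, hs⟩ _ (fun g v hv => orth_map hπ g hv) hgap hmem norm_dl3 a b k⟩

end ICC

/-! ### `SL_n(ℤ)` -/

section word

variable {Γ : Type} [Group Γ]

theorem word_bound (Q : Set Γ) {g : Γ} (hg : g ∈ Subgroup.closure Q) :
    ∃ C : ℕ, ∀ {H : Type} [NormedAddCommGroup H] [InnerProductSpace ℂ H] [CompleteSpace H]
      (π : Γ →* (H →L[ℂ] H)), (∀ g, adjoint (π g) = π g⁻¹) → ∀ (v : H) (c : ℝ),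
      (∀ t ∈ Q, ‖π t v - v‖ ≤ c) → ‖π g v - v‖ ≤ C * c := by
  induction hg using Subgroup.closure_induction with
  | mem s hs =>
    refine ⟨1, fun {H} _ _ _ π hπ v c h => ?_⟩
    rw [Nat.cast_one, one_mul]; exact h s hs
  | one =>
    refine ⟨0, fun {H} _ _ _ π hπ v c h => ?_⟩
    have : π 1 v = v := by rw [map_one]; rfl
    rw [this, sub_self, norm_zero, Nat.cast_zero, zero_mul]
  | mul a b _ _ iha ihb =>
    obtain ⟨C1, h1⟩ := iha
    obtain ⟨C2, h2⟩ := ihb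
    refine ⟨C1 + C2, fun {H} _ _ _ π hπ v c h => ?_⟩
    have e : π (a * b) v - v = π a (π b v - v) + (π a v - v) := by
      rw [map_mul, map_sub]
      change π a (π b v) - v = _
      abel
    rw [e]
    refine (norm_add_le _ _).trans ?_
    rw [u_norm hπ]
    push_cast
    have := h1 π hπ v c h
    have := h2 π hπ v c h
    linarith
  | inv a _ ih =>
    obtain ⟨C, h1⟩ := ih
    refine ⟨C, fun {H} _ _ _ π hπ v c h => ?_⟩
    have e : ‖π a⁻¹ v - v‖ = ‖π a v - v‖ := by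
      have h2 := u_norm hπ a (π a⁻¹ v - v)
      have h3 := u_inv hπ a⁻¹ v
      rw [inv_inv] at h3
      rw [map_sub, h3] at h2
      rw [← h2, norm_sub_rev]
    rw [e]
    exact h1 π hπ v c h

/-- a gap for four elements gives a gap for every generating set, with a constant independent of
the representation -/
theorem gap_of_gen {Q : Finset Γ} (hgen : Subgroup.closure (Q : Set Γ) = ⊤) (F : Set Γ)
    (hF : F.Finite) {ε : ℝ} (hε : 0 < ε) (hε1 : ε ≤ 1) :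
    ∃ ε' : ℝ, 0 < ε' ∧ ε' ≤ 1 ∧ ∀ {H : Type} [NormedAddCommGroup H] [InnerProductSpace ℂ H]
      [CompleteSpace H] (π : Γ →* (H →L[ℂ] H)), (∀ g, adjoint (π g) = π g⁻¹) → ∀ v : H, v ≠ 0 →
      (∃ s ∈ F, ε * ‖v‖ ≤ ‖π s v - v‖) → ∃ t ∈ Q, ε' * ‖v‖ ≤ ‖π t v - v‖ := by
  have hex : ∀ s : Γ, ∃ C : ℕ, ∀ {H : Type} [NormedAddCommGroup H] [InnerProductSpace ℂ H]
      [CompleteSpace H] (π : Γ →* (H →L[ℂ] H)), (∀ g, adjoint (π g) = π g⁻¹) → ∀ (v : H) (c : ℝ),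
      (∀ t ∈ (Q : Set Γ), ‖π t v - v‖ ≤ c) → ‖π s v - v‖ ≤ C * c := fun s =>
    word_bound (Q : Set Γ) (by rw [hgen]; trivial)
  choose C hC using hex
  set D : ℕ := ∑ s ∈ hF.toFinset, C s with hD
  refine ⟨ε / (2 * (D + 1)), by positivity, ?_, ?_⟩
  · rw [div_le_one (by positivity)]
    have : (0 : ℝ) ≤ D := by positivity
    linarith
  · intro H _ _ _ π hπ v hv ⟨s, hs, h1⟩
    by_contra hcon
    push Not at hcon
    have hv0 : 0 < ‖v‖ := norm_pos_iff.mpr hv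
    have h2 := hC s π hπ v (ε / (2 * (D + 1)) * ‖v‖) (fun t ht => (hcon t ht).le)
    have h3 : (C s : ℝ) ≤ D := by
      have h4 : C s ≤ D := Finset.single_le_sum (f := C) (fun _ _ => Nat.zero_le _)
        (hF.mem_toFinset.mpr hs)
      exact_mod_cast h4
    have h5 : (C s : ℝ) * (ε / (2 * (D + 1)) * ‖v‖) ≤ D * (ε / (2 * (D + 1)) * ‖v‖) := by gcongr
    have h6 : (D : ℝ) * (ε / (2 * (D + 1)) * ‖v‖) < ε * ‖v‖ := by
      have e : (D : ℝ) * (ε / (2 * (D + 1)) * ‖v‖) = (D / (2 * (D + 1))) * (ε * ‖v‖) := by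
        field_simp
      rw [e]
      have h7 : (D : ℝ) / (2 * (D + 1)) < 1 := by
        rw [div_lt_one (by positivity)]
        have : (0 : ℝ) ≤ D := by positivity
        linarith
      have h8 : 0 < ε * ‖v‖ := by positivity
      calc _ < 1 * (ε * ‖v‖) := by gcongr
        _ = _ := one_mul _
    linarith

end word

section sln

open Matrix

variable {n : ℕ} {Γ : Subgroup (Matrix.SpecialLinearGroup (Fin n) ℤ)} {Λ : Type} [Group Λ]

/-- in the non canonical case the base vector is orthogonal to all vectors fixed by unipotents -/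
theorem dl_mem_uperp (hn : 3 ≤ n) [Γ.FiniteIndex]
    (hΓ : ∀ g ∈ Γ, (g : Matrix (Fin n) (Fin n) ℤ) ≠ -1) (θ : LG Γ ≃⋆ₐ[ℂ] LG Λ)
    (hF : Frame (alphaOf θ)) (hnc : ¬ Canonical θ) :
    (dl 1 : Ell2 (Λ × Λ × Λ)) ∈ uperp (pr hF) := by
  rw [mem_uperp]
  rintro η ⟨x, hx, hη⟩
  refine orth_of_avg (pr_adj hF) x ?_ hη
  have h1 := (main_dichotomy hn Γ hΓ θ).resolve_left hnc x 1 (by rw [pow_one]; exact hx.1)
    (by rw [pow_one]; exact hx.2)
  refine squeeze_zero (fun N => ?_) (fun N => ?_) h1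
  · refine div_nonneg (Finset.sum_nonneg fun k _ => ?_) (Nat.cast_nonneg _)
    rw [pr_coeff, Complex.ofReal_re]
    exact p4_nonneg _
  · refine div_le_div_of_nonneg_right (Finset.sum_le_sum fun k _ => ?_) (Nat.cast_nonneg _)
    rw [pr_coeff, Complex.ofReal_re]
    exact p4_le_height θ hF _

theorem canonical_iff' (θ : St.StarIso Γ Λ) (hnc : ¬ St.Canonical θ) : ¬ Canonical (toAlg θ) :=
  fun h => hnc (canonical_iff θ h)

/-- from a gap on `uperp` to the conclusions -/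
theorem sln_conclusion (hn : 3 ≤ n) [Γ.FiniteIndex]
    (hΓ : ∀ g ∈ Γ, (g : Matrix (Fin n) (Fin n) ℤ) ≠ -1) (θ : St.StarIso Γ Λ)
    (hnc : ¬ St.Canonical θ) {Q : Finset Γ} {ε : ℝ} (hε : 0 ≤ ε)
    (hgap : ∀ {H : Type} [NormedAddCommGroup H] [InnerProductSpace ℂ H] [CompleteSpace H]
      (π : Γ →* (H →L[ℂ] H)), (∀ g, adjoint (π g) = π g⁻¹) → ∀ v ∈ uperp π, v ≠ 0 →
      ∃ s ∈ Q, ε * ‖v‖ ≤ ‖π s v - v‖) :
    (∃ s ∈ Q, fourth (θ.toFun (St.u s)) ≤ 1 - ε ^ 2 / 2) ∧ ∀ (a b : Γ) (k : ℕ),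
      (avg Q)^[k] (fun g => fourth (θ.toFun (St.u (a * g * b)))) 1 ≤
        (1 - ε ^ 2 / (4 * Q.card)) ^ k := by
  have hicc := icc_of_fi (by omega) Γ hΓ
  have hF := frame_of_iso hicc (toAlg θ)
  have hπ := pr_adj hF
  have hmem := dl_mem_uperp hn hΓ (toAlg θ) hF (canonical_iff' θ hnc)
  have hd0 : (dl 1 : Ell2 (Λ × Λ × Λ)) ≠ 0 := by
    intro h
    have := norm_dl3 (Λ := Λ)
    rw [h, norm_zero] at this
    exact zero_ne_one this
  obtain ⟨s, hs, hs'⟩ := hgap (pr hF) hπ _ hmem hd0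
  have hgap' : ∀ v ∈ uperp (pr hF), ∃ s ∈ Q, ε * ‖v‖ ≤ ‖pr hF s v - v‖ := by
    intro v hv
    rcases eq_or_ne v 0 with rfl | h0
    · exact ⟨s, hs, by rw [norm_zero, mul_zero]; exact norm_nonneg _⟩
    · exact hgap (pr hF) hπ v hv h0
  simp only [fourth_coeff θ hF]
  exact ⟨gap_one hπ hε ⟨s, hs, hs'⟩ norm_dl3, fun a b k =>
    gap_coeff hπ hε ⟨s, hs⟩ _ (fun g v hv => uperp_inv hπ g hv) hgap' hmem norm_dl3 a b k⟩

/-- The explicit version. -/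
theorem sln_explicit (hn : 3 ≤ n) [Γ.FiniteIndex]
    (hΓ : ∀ g ∈ Γ, (g : Matrix (Fin n) (Fin n) ℤ) ≠ -1) (θ : St.StarIso Γ Λ)
    (hnc : ¬ St.Canonical θ) {i j l : Fin n} (hij : i ≠ j) (hjl : j ≠ l)
    (hil : i ≠ l) {m : ℕ} (hm : 3 ≤ m) {k : ℤ} (hk : k ≠ 0) {s1 s2 s3 s4 : Γ}
    (h1 : ((s1 : Matrix.SpecialLinearGroup (Fin n) ℤ) : Matrix (Fin n) (Fin n) ℤ) =
      Matrix.transvection i j (m : ℤ))
    (h2 : ((s2 : Matrix.SpecialLinearGroup (Fin n) ℤ) : Matrix (Fin n) (Fin n) ℤ) =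
      Matrix.transvection j i (m : ℤ))
    (h3 : ((s3 : Matrix.SpecialLinearGroup (Fin n) ℤ) : Matrix (Fin n) (Fin n) ℤ) =
      Matrix.transvection i l k)
    (h4 : ((s4 : Matrix.SpecialLinearGroup (Fin n) ℤ) : Matrix (Fin n) (Fin n) ℤ) =
      Matrix.transvection j l k) {Q : Finset Γ} (q1 : s1 ∈ Q) (q2 : s2 ∈ Q) (q3 : s3 ∈ Q)
    (q4 : s4 ∈ Q) :
    (∃ s ∈ Q, fourth (θ.toFun (St.u s)) ≤ 1 - 1 / (32 * m ^ 2)) ∧ ∀ (a b : Γ) (k : ℕ),
      (avg Q)^[k] (fun g => fourth (θ.toFun (St.u (a * g * b)))) 1 ≤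
        (1 - 1 / (64 * m ^ 2 * Q.card)) ^ k := by
  have h := sln_conclusion hn hΓ θ hnc (Q := Q) (ε := 1 / (4 * m)) (by positivity)
    (fun π hπ v hv h0 => by
      obtain ⟨s, hs, hs'⟩ := sln_gap hπ hij hjl hil hm hk h1 h2 h3 h4 hv
      refine ⟨s, ?_, hs'⟩
      rcases hs with rfl | rfl | rfl | rfl
      exacts [q1, q2, q3, q4])
  have hm0 : (m : ℝ) ≠ 0 := by
    have : m ≠ 0 := by omega
    exact_mod_cast this
  have e1 : (1 / (4 * (m : ℝ))) ^ 2 / 2 = 1 / (32 * m ^ 2) := by field_simp; norm_num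
  have e2 : (1 / (4 * (m : ℝ))) ^ 2 / (4 * Q.card) = 1 / (64 * m ^ 2 * Q.card) := by
    rw [div_pow, one_pow, div_div]; congr 1; ring
  rw [e1, e2] at h
  exact h

/-- elementary matrices in a finite index subgroup -/
theorem exists_elem (Γ : Subgroup (Matrix.SpecialLinearGroup (Fin n) ℤ)) [Γ.FiniteIndex] :
    ∃ m : ℕ, 3 ≤ m ∧ ∀ i j : Fin n, i ≠ j → ∃ s : Γ,
      ((s : Matrix.SpecialLinearGroup (Fin n) ℤ) : Matrix (Fin n) (Fin n) ℤ) =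
        Matrix.transvection i j (m : ℤ) := by
  have hm0 : 0 < Γ.normalCore.index :=
    Nat.pos_of_ne_zero (Subgroup.FiniteIndex.index_ne_zero (H := Γ.normalCore))
  refine ⟨3 * Γ.normalCore.index, by omega, fun i j hij => ?_⟩
  set X : Matrix.SpecialLinearGroup (Fin n) ℤ :=
    H350.GoodRep.tv ⟨i, j, hij, 1⟩ with hX
  have h1 : X ^ (3 * Γ.normalCore.index) ∈ Γ := by
    rw [mul_comm, pow_mul]
    exact Γ.pow_mem (Γ.normalCore_le (Γ.normalCore.pow_index_mem X)) 3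
  refine ⟨⟨_, h1⟩, ?_⟩
  have h2 : ∀ k : ℕ, ((X ^ k : Matrix.SpecialLinearGroup (Fin n) ℤ) : Matrix (Fin n) (Fin n) ℤ) =
      Matrix.transvection i j (k : ℤ) := by
    intro k
    induction k with
    | zero => rw [pow_zero, Nat.cast_zero, Matrix.transvection_zero]; rfl
    | succ k ih =>
      rw [pow_succ, Matrix.SpecialLinearGroup.coe_mul, ih, hX, H350.GoodRep.tv_coe]
      change Matrix.transvection i j (k : ℤ) * Matrix.transvection i j 1 = _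
      rw [Matrix.transvection_mul_transvection_same _ _ hij]
      congr 1
  exact h2 _

/-- The version for all generating sets. -/
theorem sln_gen (hn : 3 ≤ n) [Γ.FiniteIndex]
    (hΓ : ∀ g ∈ Γ, (g : Matrix (Fin n) (Fin n) ℤ) ≠ -1) {Q : Finset Γ}
    (hgen : Subgroup.closure (Q : Set Γ) = ⊤) :
    ∃ δ : ℝ, 0 < δ ∧ δ < 1 ∧ ∀ {Λ : Type} [Group Λ] (θ : St.StarIso Γ Λ), ¬ St.Canonical θ →
    (∃ s ∈ Q, fourth (θ.toFun (St.u s)) ≤ 1 - δ) ∧ ∀ (a b : Γ) (k : ℕ),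
      (avg Q)^[k] (fun g => fourth (θ.toFun (St.u (a * g * b)))) 1 ≤ (1 - δ) ^ k := by
  obtain ⟨m, hm, hel⟩ := exists_elem Γ
  have hij : (⟨0, by omega⟩ : Fin n) ≠ ⟨1, by omega⟩ := by simp
  have hjl : (⟨1, by omega⟩ : Fin n) ≠ ⟨2, by omega⟩ := by simp
  have hil : (⟨0, by omega⟩ : Fin n) ≠ ⟨2, by omega⟩ := by simp
  obtain ⟨s1, h1⟩ := hel _ _ hij
  obtain ⟨s2, h2⟩ := hel _ _ hij.symm
  obtain ⟨s3, h3⟩ := hel _ _ hil
  obtain ⟨s4, h4⟩ := hel _ _ hjl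
  have hm' : (3 : ℝ) ≤ m := by exact_mod_cast hm
  obtain ⟨ε, hε, hε1, hgap⟩ := gap_of_gen hgen ({s1, s2, s3, s4} : Set Γ) (by simp)
    (ε := 1 / (4 * m)) (by positivity) (by
      rw [div_le_one (by positivity)]; linarith)
  have hall : ∀ {H : Type} [NormedAddCommGroup H] [InnerProductSpace ℂ H] [CompleteSpace H]
      (π : Γ →* (H →L[ℂ] H)), (∀ g, adjoint (π g) = π g⁻¹) → ∀ v ∈ uperp π, v ≠ 0 →
      ∃ s ∈ Q, ε * ‖v‖ ≤ ‖π s v - v‖ := fun π hπ v hv h0 =>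
    hgap π hπ v h0 (sln_gap hπ hij hjl hil hm (k := m) (by
      have : m ≠ 0 := by omega
      exact_mod_cast this) h1 h2 h3 h4 hv)
  by_cases hQ : Q.Nonempty
  swap
  · refine ⟨1 / 2, by norm_num, by norm_num, fun {Λ} _ θ hnc => ?_⟩
    obtain ⟨⟨s, hs, -⟩, -⟩ := sln_conclusion hn hΓ θ hnc hε.le hall
    exact absurd ⟨s, hs⟩ hQ
  have hc : (1 : ℝ) ≤ Q.card := by exact_mod_cast hQ.card_pos
  have hε2 : ε ^ 2 ≤ 1 := pow_le_one₀ hε.le hε1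
  refine ⟨ε ^ 2 / (4 * Q.card), by positivity, ?_, fun {Λ} _ θ hnc => ?_⟩
  · rw [div_lt_one (by positivity)]; nlinarith
  · obtain ⟨⟨s, hs, h5⟩, h6⟩ := sln_conclusion hn hΓ θ hnc hε.le hall
    refine ⟨⟨s, hs, h5.trans ?_⟩, h6⟩
    have : ε ^ 2 / (4 * Q.card) ≤ ε ^ 2 / 2 := by
      gcongr
      linarith
    linarith

end sln

end Vale.Agent.P092.H885
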