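import Mathlib

/-!
Definitions used in the statements for P092: unitary representations, Kazhdan pairs, averages.
-/

namespace Vale.Agent.P092.H885

/-- A unitary representation of `Γ` on the Hilbert space `H`. -/
structure URep (Γ : Type) [Group Γ] (H : Type) [NormedAddCommGroup H] [InnerProductSpace ℂ H]
    where
  /-- the action -/
  act : Γ → H → H
  act_add : ∀ g v w, act g (v + w) = act g v + act g w
  act_smul : ∀ g (c : ℂ) v, act g (c • v) = c • act g v
  norm_act : ∀ g v, ‖act g v‖ = ‖v‖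
  act_one : ∀ v, act 1 v = v
  act_mul : ∀ g h v, act (g * h) v = act g (act h v)

/-- `(Q, ε)` is a Kazhdan pair: in every unitary representation without nonzero invariant vectors
every vector `v` is moved by at least `ε ‖v‖` by some element of `Q`. -/
def IsKazhdanPair (Γ : Type) [Group Γ] (Q : Finset Γ) (ε : ℝ) : Prop :=
  0 < ε ∧ ∀ (H : Type) [NormedAddCommGroup H] [InnerProductSpace ℂ H] [CompleteSpace H]
    (π : URep Γ H), (∀ v, (∀ g, π.act g v = v) → v = 0) →
    ∀ v, ∃ s ∈ Q, ε * ‖v‖ ≤ ‖π.act s v - v‖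

/-- One step of the lazy random walk with steps in `Q ∪ Q⁻¹`:
`(A f)(g) = f(g)/2 + (4|Q|)⁻¹ ∑_{s ∈ Q} (f(gs) + f(gs⁻¹))`. -/
noncomputable def avg {Γ : Type} [Group Γ] (Q : Finset Γ) (f : Γ → ℝ) (g : Γ) : ℝ :=
  f g / 2 + (∑ s ∈ Q, (f (g * s) + f (g * s⁻¹))) / (4 * Q.card)

end Vale.Agent.P092.H885
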