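import Vale.Agent.P092.H160.Rep
import Vale.Agent.P092.H885.KDefs

/-!
Unitary representations, lazy random walk averages of a coefficient, Kazhdan pairs.
-/

set_option linter.all false

open scoped InnerProductSpace
open Filter Topology ContinuousLinearMap

namespace Vale.Agent.P092.H885

section general

variable {Γ : Type} [Group Γ] {H : Type} [NormedAddCommGroup H] [InnerProductSpace ℂ H]
    [CompleteSpace H] {π : Γ →* (H →L[ℂ] H)}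

/-- the averaging operator, on vectors -/
noncomputable def av (π : Γ →* (H →L[ℂ] H)) (Q : Finset Γ) (v : H) : H :=
  (1 / 2 : ℂ) • v + ((4 * Q.card : ℂ)⁻¹) • ∑ s ∈ Q, (π s v + π s⁻¹ v)

theorem avg_coeff (ξ w : H) (Q : Finset Γ) :
    avg Q (fun g => (⟪ξ, π g w⟫_ℂ).re) = fun g => (⟪ξ, π g (av π Q w)⟫_ℂ).re := by
  funext g
  rw [avg, av, map_add, map_smul, map_smul, inner_add_right, inner_smul_right, inner_smul_right,
    map_sum, inner_sum]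
  have h1 : ∀ s ∈ Q, ⟪ξ, π g (π s w + π s⁻¹ w)⟫_ℂ = ⟪ξ, π (g * s) w⟫_ℂ + ⟪ξ, π (g * s⁻¹) w⟫_ℂ := by
    intro s _
    rw [map_add, inner_add_right, map_mul, map_mul]
    rfl
  rw [Finset.sum_congr rfl h1]
  have h2 : ((4 * Q.card : ℂ)⁻¹) = (((4 * Q.card : ℝ)⁻¹ : ℝ) : ℂ) := by push_cast; rfl
  have h3 : (1 / 2 : ℂ) = ((1 / 2 : ℝ) : ℂ) := by push_cast; rfl
  rw [h2, h3, Complex.add_re, Complex.re_ofReal_mul, Complex.re_ofReal_mul, Complex.re_sum]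
  simp only [Complex.add_re]
  rw [div_eq_mul_inv, div_eq_mul_inv]
  ring

theorem avg_iter (ξ w : H) (Q : Finset Γ) (n : ℕ) :
    (avg Q)^[n] (fun g => (⟪ξ, π g w⟫_ℂ).re) = fun g => (⟪ξ, π g ((av π Q)^[n] w)⟫_ℂ).re := by
  induction n generalizing w with
  | zero => rfl
  | succ n ih => rw [Function.iterate_succ_apply, Function.iterate_succ_apply, avg_coeff, ih]

variable (hπ : ∀ g, adjoint (π g) = π g⁻¹)

include hπ

theorem u_left (g : Γ) (u v : H) : ⟪π g u, v⟫_ℂ = ⟪u, π g⁻¹ v⟫_ℂ := by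
  rw [← hπ, adjoint_inner_right]

theorem u_inv (g : Γ) (v : H) : π g⁻¹ (π g v) = v := by
  have : π g⁻¹ (π g v) = (π g⁻¹ * π g) v := rfl
  rw [this, ← map_mul, inv_mul_cancel, map_one]; rfl

theorem u_norm (g : Γ) (v : H) : ‖π g v‖ = ‖v‖ := by
  have h1 : ⟪π g v, π g v⟫_ℂ = ⟪v, v⟫_ℂ := by
    rw [u_left hπ, u_inv hπ]
  rw [inner_self_eq_norm_sq_to_K, inner_self_eq_norm_sq_to_K] at h1
  have h2 : ‖π g v‖ ^ 2 = ‖v‖ ^ 2 := by exact_mod_cast h1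
  exact (pow_left_inj₀ (norm_nonneg _) (norm_nonneg _) two_ne_zero).mp h2

theorem av_symm (Q : Finset Γ) (u v : H) : ⟪u, av π Q v⟫_ℂ = ⟪av π Q u, v⟫_ℂ := by
  rw [av, av, inner_add_right, inner_add_left, inner_smul_right, inner_smul_left,
    inner_smul_right, inner_smul_left, inner_sum, sum_inner]
  have h1 : ∀ s ∈ Q, ⟪u, π s v + π s⁻¹ v⟫_ℂ = ⟪π s u + π s⁻¹ u, v⟫_ℂ := by
    intro s _
    rw [inner_add_right, inner_add_left, u_left hπ, u_left hπ, inv_inv, add_comm]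
  rw [Finset.sum_congr rfl h1]
  have h2 : ((4 * Q.card : ℂ)⁻¹) = (((4 * Q.card : ℝ)⁻¹ : ℝ) : ℂ) := by push_cast; rfl
  have h3 : (1 / 2 : ℂ) = ((1 / 2 : ℝ) : ℂ) := by push_cast; rfl
  rw [h2, h3, Complex.conj_ofReal, Complex.conj_ofReal]

theorem av_quad (Q : Finset Γ) (hQ : Q.Nonempty) (v : H) :
    (⟪v, av π Q v⟫_ℂ).re = ‖v‖ ^ 2 - (∑ s ∈ Q, ‖π s v - v‖ ^ 2) / (4 * Q.card) := by
  have hm : (Q.card : ℝ) ≠ 0 := by
    exact_mod_cast hQ.card_pos.ne'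
  have h1 : ∀ s ∈ Q, ‖π s v - v‖ ^ 2 = 2 * ‖v‖ ^ 2 - (⟪v, π s v + π s⁻¹ v⟫_ℂ).re := by
    intro s _
    have h2 := norm_sub_sq (𝕜 := ℂ) (π s v) v
    rw [u_norm hπ] at h2
    rw [h2, inner_add_right, Complex.add_re]
    have h3 : (⟪π s v, v⟫_ℂ).re = (⟪v, π s v⟫_ℂ).re := by
      rw [← inner_conj_symm, Complex.conj_re]
    have h4 : ⟪v, π s⁻¹ v⟫_ℂ = ⟪π s v, v⟫_ℂ := by rw [u_left hπ]
    rw [h4, h3]
    change ‖v‖ ^ 2 - 2 * (⟪π s v, v⟫_ℂ).re + ‖v‖ ^ 2 = _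
    rw [h3]
    ring
  rw [Finset.sum_congr rfl h1, Finset.sum_sub_distrib, Finset.sum_const, nsmul_eq_mul]
  rw [av, inner_add_right, inner_smul_right, inner_smul_right, inner_sum,
    inner_self_eq_norm_sq_to_K]
  have h2 : ((4 * Q.card : ℂ)⁻¹) = (((4 * Q.card : ℝ)⁻¹ : ℝ) : ℂ) := by push_cast; rfl
  have h3 : (1 / 2 : ℂ) = ((1 / 2 : ℝ) : ℂ) := by push_cast; rfl
  have h5 : ((‖v‖ : ℂ)) ^ 2 = ((‖v‖ ^ 2 : ℝ) : ℂ) := by push_cast; rfl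
  rw [h2, h3, Complex.add_re, Complex.re_ofReal_mul, Complex.re_ofReal_mul, Complex.re_sum]
  change 1 / 2 * (((‖v‖ : ℂ)) ^ 2).re + _ = _
  rw [h5, Complex.ofReal_re]
  field_simp
  ring

theorem av_nonneg (Q : Finset Γ) (hQ : Q.Nonempty) (v : H) : 0 ≤ (⟪v, av π Q v⟫_ℂ).re := by
  rw [av_quad hπ Q hQ]
  have hm : (0 : ℝ) < Q.card := by exact_mod_cast hQ.card_pos
  have h1 : ∑ s ∈ Q, ‖π s v - v‖ ^ 2 ≤ ∑ s ∈ Q, 4 * ‖v‖ ^ 2 := by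
    refine Finset.sum_le_sum fun s _ => ?_
    have h2 : ‖π s v - v‖ ≤ 2 * ‖v‖ := by
      refine (norm_sub_le _ _).trans ?_
      rw [u_norm hπ]
      linarith
    calc ‖π s v - v‖ ^ 2 ≤ (2 * ‖v‖) ^ 2 := pow_le_pow_left₀ (norm_nonneg _) h2 2
      _ = _ := by ring
  rw [Finset.sum_const, nsmul_eq_mul] at h1
  have h3 : (∑ s ∈ Q, ‖π s v - v‖ ^ 2) / (4 * Q.card) ≤ ‖v‖ ^ 2 := by
    rw [div_le_iff₀ (by positivity)]
    calc _ ≤ _ := h1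
      _ = _ := by ring
  linarith

omit hπ in
theorem av_lin (Q : Finset Γ) (u v : H) (t : ℝ) :
    av π Q (u + (t : ℂ) • v) = av π Q u + (t : ℂ) • av π Q v := by
  simp only [av, map_add, map_smul, smul_add, Finset.sum_add_distrib, ← Finset.smul_sum]
  simp only [smul_comm (t : ℂ)]
  abel

/-- Cauchy-Schwarz for the averaging operator. -/
theorem av_cs (Q : Finset Γ) (hQ : Q.Nonempty) (v : H) :
    (‖av π Q v‖ ^ 2) ^ 2 ≤ (⟪v, av π Q v⟫_ℂ).re * (⟪av π Q v, av π Q (av π Q v)⟫_ℂ).re := by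
  set w := av π Q v with hw
  set a := (⟪v, av π Q v⟫_ℂ).re with ha
  set c := (⟪w, av π Q w⟫_ℂ).re with hc
  have h1 : ∀ t : ℝ, 0 ≤ c * (t * t) + (2 * ‖w‖ ^ 2) * t + a := by
    intro t
    have h2 := av_nonneg hπ Q hQ (v + (t : ℂ) • w)
    rw [av_lin, inner_add_left, inner_add_right, inner_add_right, inner_smul_left,
      inner_smul_left, inner_smul_right, inner_smul_right, Complex.conj_ofReal] at h2
    have h3 : ⟪v, av π Q w⟫_ℂ = ⟪w, w⟫_ℂ := by rw [av_symm hπ]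
    have h4 : ⟪w, w⟫_ℂ = ((‖w‖ ^ 2 : ℝ) : ℂ) := by
      rw [inner_self_eq_norm_sq_to_K]
      push_cast
      rfl
    rw [h3, ← hw, h4, Complex.add_re, Complex.add_re, Complex.add_re, Complex.re_ofReal_mul,
      Complex.re_ofReal_mul, Complex.re_ofReal_mul, Complex.ofReal_re] at h2
    rw [ha, hc]
    calc (0 : ℝ) ≤ _ := h2
      _ = _ := by ring
  have h2 := discrim_le_zero h1
  rw [discrim] at h2
  nlinarith

theorem av_norm_le (Q : Finset Γ) (hQ : Q.Nonempty) {ρ : ℝ} (hρ : 0 ≤ ρ) (v : H)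
    (h1 : (⟪v, av π Q v⟫_ℂ).re ≤ ρ * ‖v‖ ^ 2)
    (h2 : (⟪av π Q v, av π Q (av π Q v)⟫_ℂ).re ≤ ρ * ‖av π Q v‖ ^ 2) :
    ‖av π Q v‖ ≤ ρ * ‖v‖ := by
  have h3 := av_cs hπ Q hQ v
  have h4 := av_nonneg hπ Q hQ v
  have h5 := av_nonneg hπ Q hQ (av π Q v)
  have h6 : (‖av π Q v‖ ^ 2) ^ 2 ≤ (ρ * ‖v‖ ^ 2) * (ρ * ‖av π Q v‖ ^ 2) :=
    h3.trans (mul_le_mul h1 h2 h5 (by positivity))
  by_cases h0 : ‖av π Q v‖ = 0
  · rw [h0]; positivity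
  · have h7 : 0 < ‖av π Q v‖ ^ 2 := by positivity
    have h8 : ‖av π Q v‖ ^ 2 ≤ (ρ * ‖v‖) ^ 2 := by
      have h9 : (‖av π Q v‖ ^ 2) * ‖av π Q v‖ ^ 2 ≤ (ρ * ‖v‖) ^ 2 * ‖av π Q v‖ ^ 2 := by
        calc _ = (‖av π Q v‖ ^ 2) ^ 2 := by ring
          _ ≤ _ := h6
          _ = _ := by ring
      exact le_of_mul_le_mul_right h9 h7
    exact (pow_le_pow_iff_left₀ (norm_nonneg _) (by positivity) two_ne_zero).mp h8

omit hπ in
/-- The subspace of invariant vectors. -/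
def invSub (π : Γ →* (H →L[ℂ] H)) : Submodule ℂ H where
  carrier := {v | ∀ g, π g v = v}
  add_mem' := fun {a b} ha hb g => by
    have ha' : π g a = a := ha g
    have hb' : π g b = b := hb g
    rw [map_add, ha', hb']
  zero_mem' := fun g => map_zero _
  smul_mem' := fun c v hv g => by
    have hv' : π g v = v := hv g
    rw [map_smul, hv']

theorem orth_map (g : Γ) {v : H} (hv : v ∈ (invSub π)ᗮ) : π g v ∈ (invSub π)ᗮ := by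
  rw [Submodule.mem_orthogonal] at hv ⊢
  intro η hη
  have hη' : ∀ g, π g η = η := hη
  have h1 : ⟪η, π g v⟫_ℂ = ⟪π g⁻¹ η, v⟫_ℂ := by
    rw [u_left hπ, inv_inv]
  rw [h1, hη' g⁻¹]
  exact hv η hη

theorem orth_av (Q : Finset Γ) {v : H} (hv : v ∈ (invSub π)ᗮ) : av π Q v ∈ (invSub π)ᗮ := by
  refine Submodule.add_mem _ (Submodule.smul_mem _ _ hv) (Submodule.smul_mem _ _ ?_)
  exact Submodule.sum_mem _ fun s _ =>
    Submodule.add_mem _ (orth_map hπ s hv) (orth_map hπ s⁻¹ hv)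

/-- the representation on the orthogonal complement of the invariant vectors -/
noncomputable def orep : URep Γ ((invSub π)ᗮ : Submodule ℂ H) where
  act g v := ⟨π g v, orth_map hπ g v.2⟩
  act_add g v w := Subtype.ext (by
    change π g ((v : H) + (w : H)) = π g v + π g w
    rw [map_add])
  act_smul g c v := Subtype.ext (by
    change π g (c • (v : H)) = c • π g v
    rw [map_smul])
  norm_act g v := u_norm hπ g v
  act_one v := Subtype.ext (by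
    change π 1 (v : H) = v
    rw [map_one]; rfl)
  act_mul g h v := Subtype.ext (by
    change π (g * h) (v : H) = π g (π h v)
    rw [map_mul]; rfl)

theorem kazhdan_moves {Q : Finset Γ} {ε : ℝ} (hK : IsKazhdanPair Γ Q ε) {v : H}
    (hv : v ∈ (invSub π)ᗮ) : ∃ s ∈ Q, ε * ‖v‖ ≤ ‖π s v - v‖ := by
  have h1 := hK.2 ((invSub π)ᗮ : Submodule ℂ H) (orep hπ) (by
    rintro ⟨w, hw⟩ hinv
    have h2 : w ∈ invSub π := fun g => congrArg Subtype.val (hinv g)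
    have h3 := (Submodule.mem_orthogonal _ _).mp hw w h2
    exact Subtype.ext (inner_self_eq_zero.mp h3)) ⟨v, hv⟩
  obtain ⟨s, hs, h2⟩ := h1
  exact ⟨s, hs, h2⟩

theorem kazhdan_quad {Q : Finset Γ} {ε : ℝ} (hK : IsKazhdanPair Γ Q ε) (hQ : Q.Nonempty) {v : H}
    (hv : v ∈ (invSub π)ᗮ) :
    (⟪v, av π Q v⟫_ℂ).re ≤ (1 - ε ^ 2 / (4 * Q.card)) * ‖v‖ ^ 2 := by
  have hm : (0 : ℝ) < Q.card := by exact_mod_cast hQ.card_pos
  rw [av_quad hπ Q hQ]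
  obtain ⟨s, hs, h1⟩ := kazhdan_moves hπ hK hv
  have h2 : (ε * ‖v‖) ^ 2 ≤ ∑ s ∈ Q, ‖π s v - v‖ ^ 2 := by
    refine (pow_le_pow_left₀ (by have := hK.1; positivity) h1 2).trans ?_
    exact Finset.single_le_sum (f := fun s => ‖π s v - v‖ ^ 2) (fun _ _ => by positivity) hs
  have h3 : (ε * ‖v‖) ^ 2 / (4 * Q.card) ≤ (∑ s ∈ Q, ‖π s v - v‖ ^ 2) / (4 * Q.card) := by
    gcongr
  calc _ ≤ ‖v‖ ^ 2 - (ε * ‖v‖) ^ 2 / (4 * Q.card) := by linarith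
    _ = _ := by ring

/-- Exponential decay. -/
theorem kazhdan_decay {Q : Finset Γ} {ε : ℝ} (hK : IsKazhdanPair Γ Q ε) {ξ : H}
    (h1 : ‖ξ‖ = 1) (hξ : ∀ η, (∀ g, π g η = η) → ⟪η, ξ⟫_ℂ = 0) (n : ℕ) :
    (avg Q)^[n] (fun g => (⟪ξ, π g ξ⟫_ℂ).re) 1 ≤ (1 - ε ^ 2 / (4 * Q.card)) ^ n := by
  have hmem : ξ ∈ (invSub π)ᗮ := (Submodule.mem_orthogonal _ _).mpr fun η hη => hξ η hη
  obtain ⟨s, hs, h2⟩ := kazhdan_moves hπ hK hmem
  have hQ : Q.Nonempty := ⟨s, hs⟩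
  set ρ := 1 - ε ^ 2 / (4 * (Q.card : ℝ)) with hρ
  have hρ0 : 0 ≤ ρ := by
    have h3 := kazhdan_quad hπ hK hQ hmem
    have h4 := av_nonneg hπ Q hQ ξ
    rw [h1, one_pow, mul_one] at h3
    exact h4.trans h3
  have key : ∀ n : ℕ, (av π Q)^[n] ξ ∈ (invSub π)ᗮ ∧ ‖(av π Q)^[n] ξ‖ ≤ ρ ^ n := by
    intro n
    induction n with
    | zero => exact ⟨hmem, by simp [h1]⟩
    | succ n ih =>
      rw [Function.iterate_succ_apply']
      refine ⟨orth_av hπ Q ih.1, ?_⟩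
      have h3 := av_norm_le hπ Q hQ hρ0 ((av π Q)^[n] ξ) (kazhdan_quad hπ hK hQ ih.1)
        (kazhdan_quad hπ hK hQ (orth_av hπ Q ih.1))
      calc _ ≤ ρ * ‖(av π Q)^[n] ξ‖ := h3
        _ ≤ ρ * ρ ^ n := by gcongr; exact ih.2
        _ = ρ ^ (n + 1) := by ring
  rw [avg_iter]
  have h3 : π 1 ((av π Q)^[n] ξ) = (av π Q)^[n] ξ := by rw [map_one]; rfl
  change (⟪ξ, π 1 ((av π Q)^[n] ξ)⟫_ℂ).re ≤ _
  rw [h3]
  calc _ ≤ ‖⟪ξ, (av π Q)^[n] ξ⟫_ℂ‖ := Complex.re_le_norm _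
    _ ≤ ‖ξ‖ * ‖(av π Q)^[n] ξ‖ := norm_inner_le_norm _ _
    _ ≤ ρ ^ n := by rw [h1, one_mul]; exact (key n).2

/-- One of the generators moves the vector. -/
theorem kazhdan_one {Q : Finset Γ} {ε : ℝ} (hK : IsKazhdanPair Γ Q ε) {ξ : H}
    (h1 : ‖ξ‖ = 1) (hξ : ∀ η, (∀ g, π g η = η) → ⟪η, ξ⟫_ℂ = 0) :
    ∃ s ∈ Q, (⟪ξ, π s ξ⟫_ℂ).re ≤ 1 - ε ^ 2 / 2 := by
  have hmem : ξ ∈ (invSub π)ᗮ := (Submodule.mem_orthogonal _ _).mpr fun η hη => hξ η hη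
  obtain ⟨s, hs, h2⟩ := kazhdan_moves hπ hK hmem
  refine ⟨s, hs, ?_⟩
  rw [h1, mul_one] at h2
  have h3 := norm_sub_sq (𝕜 := ℂ) (π s ξ) ξ
  rw [u_norm hπ, h1] at h3
  have h4 : (⟪π s ξ, ξ⟫_ℂ).re = (⟪ξ, π s ξ⟫_ℂ).re := by
    rw [← inner_conj_symm, Complex.conj_re]
  have h5 : ‖π s ξ - ξ‖ ^ 2 = 1 ^ 2 - 2 * (⟪π s ξ, ξ⟫_ℂ).re + 1 ^ 2 := h3
  have h6 : ε ^ 2 ≤ ‖π s ξ - ξ‖ ^ 2 := pow_le_pow_left₀ hK.1.le h2 2
  rw [h5, h4] at h6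
  linarith

end general

end Vale.Agent.P092.H885
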