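import Vale.Agent.P092.H885.Fct

/-!
Spectral gap without invariant vectors for the pair `(SL₂ ⋉ ℤ², ℤ²)`, with explicit constants.
-/

set_option linter.all false

open scoped InnerProductSpace ComplexConjugate
open Filter Topology ContinuousLinearMap
open scoped CStarAlgebra

namespace Vale.Agent.P092.H885

/-- complexification of a real function -/
noncomputable def rc (f : C(T2, ℝ)) : C(T2, ℂ) := ⟨fun p => (f p : ℂ), by fun_prop⟩

theorem rc_apply (f : C(T2, ℝ)) (p : T2) : rc f p = (f p : ℂ) := rfl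
theorem rc_add (f g : C(T2, ℝ)) : rc (f + g) = rc f + rc g := by
  ext p; simp [rc_apply]
theorem rc_sub (f g : C(T2, ℝ)) : rc (f - g) = rc f - rc g := by
  ext p; simp [rc_apply]
theorem rc_mul (f g : C(T2, ℝ)) : rc (f * g) = rc f * rc g := by
  ext p; simp [rc_apply]
theorem rc_smul (c : ℝ) (f : C(T2, ℝ)) : rc (c • f) = (c : ℂ) • rc f := by
  ext p; simp [rc_apply]
theorem rc_one : rc 1 = 1 := by
  ext p; simp [rc_apply]
theorem rc_star (f : C(T2, ℝ)) : star (rc f) = rc f := by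
  ext p
  change (starRingEnd ℂ) (f p : ℂ) = _
  rw [Complex.conj_ofReal]; rfl

theorem rc_norm {f : C(T2, ℝ)} (h0 : ∀ p, 0 ≤ f p) {c : ℝ} (h1 : ∀ p, f p ≤ c) (hc : 0 ≤ c) :
    ‖rc f‖ ≤ c := by
  rw [ContinuousMap.norm_le _ hc]
  intro p
  rw [rc_apply, Complex.norm_real, Real.norm_eq_abs, abs_of_nonneg (h0 p)]
  exact h1 p

variable {H : Type} [NormedAddCommGroup H] [InnerProductSpace ℂ H] [CompleteSpace H]

theorem oneap (v : H) : (1 : H →L[ℂ] H) v = v := rfl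
theorem mulap (S T : H →L[ℂ] H) (v : H) : (S * T) v = S (T v) := rfl

/-- the spectral distribution -/
noncomputable def J (Φ : C(T2, ℂ) →⋆ₐ[ℂ] (H →L[ℂ] H)) (v : H) (f : C(T2, ℝ)) : ℝ :=
  (⟪v, Φ (rc f) v⟫_ℂ).re

variable {Φ : C(T2, ℂ) →⋆ₐ[ℂ] (H →L[ℂ] H)}

theorem J_add (v : H) (f g : C(T2, ℝ)) : J Φ v (f + g) = J Φ v f + J Φ v g := by
  rw [J, J, J, rc_add, map_add, add_apply, inner_add_right, Complex.add_re]

theorem J_sub (v : H) (f g : C(T2, ℝ)) : J Φ v (f - g) = J Φ v f - J Φ v g := by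
  rw [J, J, J, rc_sub, map_sub, sub_apply, inner_sub_right, Complex.sub_re]

theorem J_smul (v : H) (c : ℝ) (f : C(T2, ℝ)) : J Φ v (c • f) = c * J Φ v f := by
  rw [J, J, rc_smul, map_smul, smul_apply, inner_smul_right, Complex.re_ofReal_mul]

theorem J_one (v : H) : J Φ v 1 = ‖v‖ ^ 2 := by
  rw [J, rc_one, map_one, oneap, inner_self_eq_norm_sq_to_K]
  have h5 : ((‖v‖ : ℂ)) ^ 2 = ((‖v‖ ^ 2 : ℝ) : ℂ) := by push_cast; rfl
  change (((‖v‖ : ℂ)) ^ 2).re = _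
  rw [h5, Complex.ofReal_re]

/-- `‖Φ(F) v‖²` is the value of the distribution at `|F|²` -/
theorem J_sq (v : H) (F : C(T2, ℂ)) (f : C(T2, ℝ)) (h : ∀ p, ‖F p‖ ^ 2 = f p) :
    J Φ v f = ‖Φ F v‖ ^ 2 := by
  have h1 : rc f = star F * F := by
    ext p
    rw [rc_apply, ← h p]
    change _ = (starRingEnd ℂ) (F p) * F p
    rw [← Complex.normSq_eq_conj_mul_self, Complex.normSq_eq_norm_sq]
  rw [J, h1, map_mul, map_star, star_eq_adjoint, mulap, adjoint_inner_right,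
    inner_self_eq_norm_sq_to_K]
  have h5 : ((‖Φ F v‖ : ℂ)) ^ 2 = ((‖Φ F v‖ ^ 2 : ℝ) : ℂ) := by push_cast; rfl
  change (((‖Φ F v‖ : ℂ)) ^ 2).re = _
  rw [h5, Complex.ofReal_re]

theorem J_nonneg (v : H) {f : C(T2, ℝ)} (h : ∀ p, 0 ≤ f p) : 0 ≤ J Φ v f := by
  rw [J_sq v (rc ⟨fun p => Real.sqrt (f p), by fun_prop⟩) f]
  · positivity
  · intro p
    rw [rc_apply, Complex.norm_real, Real.norm_eq_abs, abs_of_nonneg (by exact Real.sqrt_nonneg _)]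
    exact Real.sq_sqrt (h p)

theorem J_mono (v : H) {f g : C(T2, ℝ)} (h : ∀ p, f p ≤ g p) : J Φ v f ≤ J Φ v g := by
  have h1 := J_nonneg (Φ := Φ) v (f := g - f) (fun p => by
    rw [ContinuousMap.sub_apply]; exact sub_nonneg.mpr (h p))
  rw [J_sub] at h1
  linarith

theorem J_close (v w : H) {f : C(T2, ℝ)} (h0 : ∀ p, 0 ≤ f p) (h1 : ∀ p, f p ≤ 1) :
    |J Φ v f - J Φ w f| ≤ ‖v - w‖ * (‖v‖ + ‖w‖) := by
  have hn : ‖Φ (rc f)‖ ≤ 1 :=
    (NonUnitalStarAlgHom.norm_apply_le Φ (rc f)).trans (rc_norm h0 h1 zero_le_one)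
  have e : J Φ v f - J Φ w f =
      (⟪v - w, Φ (rc f) v⟫_ℂ + ⟪w, Φ (rc f) (v - w)⟫_ℂ).re := by
    rw [J, J, ← Complex.sub_re]
    congr 1
    rw [inner_sub_left, map_sub, inner_sub_right]
    ring
  rw [e]
  refine (Complex.abs_re_le_norm _).trans ?_
  refine (norm_add_le _ _).trans ?_
  have a1 : ‖⟪v - w, Φ (rc f) v⟫_ℂ‖ ≤ ‖v - w‖ * ‖v‖ := by
    refine (norm_inner_le_norm _ _).trans ?_
    gcongr
    calc ‖Φ (rc f) v‖ ≤ ‖Φ (rc f)‖ * ‖v‖ := le_opNorm _ _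
      _ ≤ 1 * ‖v‖ := by gcongr
      _ = ‖v‖ := one_mul _
  have a2 : ‖⟪w, Φ (rc f) (v - w)⟫_ℂ‖ ≤ ‖w‖ * ‖v - w‖ := by
    refine (norm_inner_le_norm _ _).trans ?_
    gcongr
    calc ‖Φ (rc f) (v - w)‖ ≤ ‖Φ (rc f)‖ * ‖v - w‖ := le_opNorm _ _
      _ ≤ 1 * ‖v - w‖ := by gcongr
      _ = ‖v - w‖ := one_mul _
  linarith

/-- the conical functions on the torus -/
noncomputable def fX (δ : ℝ) (hδ : 0 < δ) : C(T2, ℝ) :=
  ⟨fun p => cone δ ‖p.1‖ ‖p.2‖, cone_cont hδ (by fun_prop) (by fun_prop)⟩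
noncomputable def fY (δ : ℝ) (hδ : 0 < δ) : C(T2, ℝ) :=
  ⟨fun p => cone δ ‖p.2‖ ‖p.1‖, cone_cont hδ (by fun_prop) (by fun_prop)⟩
noncomputable def fB (δ : ℝ) : C(T2, ℝ) :=
  ⟨fun p => bump δ ‖p.1‖ ‖p.2‖, bump_cont (by fun_prop) (by fun_prop)⟩

/-- shears -/
noncomputable def sh1 (m : ℤ) : C(T2, T2) := ⟨fun p => (p.1, p.2 + m • p.1), by fun_prop⟩
noncomputable def sh2 (m : ℤ) : C(T2, T2) := ⟨fun p => (p.1 + m • p.2, p.2), by fun_prop⟩

/-- squared norms of the coordinates -/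
noncomputable def n1 : C(T2, ℝ) := ⟨fun p => ‖p.1‖ ^ 2, by fun_prop⟩
noncomputable def n2 : C(T2, ℝ) := ⟨fun p => ‖p.2‖ ^ 2, by fun_prop⟩

theorem J_n1 (v : H) : 16 * J Φ v n1 ≤ ‖Φ e1 v - v‖ ^ 2 := by
  have h1 := J_sq (Φ := Φ) v (e1 - 1) ⟨fun p => ‖(e1 - 1) p‖ ^ 2, by fun_prop⟩ (fun p => rfl)
  rw [map_sub, map_one, sub_apply, oneap] at h1
  rw [← h1, ← J_smul]
  refine J_mono v fun p => ?_
  change 16 * ‖p.1‖ ^ 2 ≤ ‖((AddCircle.toCircle p.1 : Circle) : ℂ) - 1‖ ^ 2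
  have h2 := (T1.chord p.1).1
  calc 16 * ‖p.1‖ ^ 2 = (4 * ‖p.1‖) ^ 2 := by ring
    _ ≤ _ := pow_le_pow_left₀ (by positivity) h2 2

theorem J_n2 (v : H) : 16 * J Φ v n2 ≤ ‖Φ e2 v - v‖ ^ 2 := by
  have h1 := J_sq (Φ := Φ) v (e2 - 1) ⟨fun p => ‖(e2 - 1) p‖ ^ 2, by fun_prop⟩ (fun p => rfl)
  rw [map_sub, map_one, sub_apply, oneap] at h1
  rw [← h1, ← J_smul]
  refine J_mono v fun p => ?_
  change 16 * ‖p.2‖ ^ 2 ≤ ‖((AddCircle.toCircle p.2 : Circle) : ℂ) - 1‖ ^ 2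
  have h2 := (T1.chord p.2).1
  calc 16 * ‖p.2‖ ^ 2 = (4 * ‖p.2‖) ^ 2 := by ring
    _ ≤ _ := pow_le_pow_left₀ (by positivity) h2 2

/-- covariance -/
theorem J_cov {W : H →L[ℂ] H} {a : C(T2, T2)}
    (h : ∀ F : C(T2, ℂ), W * Φ F = Φ (F.comp a) * W) (hW : W * star W = 1)
    (v : H) (f : C(T2, ℝ)) : J Φ v (f.comp a) = J Φ (star W v) f := by
  have h1 : (rc f).comp a = rc (f.comp a) := by ext p; rfl
  have h2 := h (rc f)
  rw [h1] at h2
  rw [J, J, star_eq_adjoint, adjoint_inner_left]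
  congr 2
  have h3 : Φ (rc (f.comp a)) = W * Φ (rc f) * star W := by
    rw [h2, mul_assoc, hW, mul_one]
  rw [h3]
  rfl

theorem cov_of_gen {W : H →L[ℂ] H} {a : C(T2, T2)} (hW : W * star W = 1) (hW' : star W * W = 1)
    (h1 : W * Φ e1 = Φ (e1.comp a) * W) (h2 : W * Φ e2 = Φ (e2.comp a) * W)
    (F : C(T2, ℂ)) : W * Φ F = Φ (F.comp a) * W := by
  let Ψ1 : C(T2, ℂ) →⋆ₐ[ℂ] (H →L[ℂ] H) :=
    { toFun := fun F => W * Φ F * star W
      map_one' := by rw [map_one, mul_one, hW]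
      map_mul' := fun F G => by
        rw [map_mul]
        calc W * (Φ F * Φ G) * star W = W * Φ F * 1 * Φ G * star W := by
              rw [mul_one]; simp only [mul_assoc]
          _ = W * Φ F * (star W * W) * Φ G * star W := by rw [hW']
          _ = _ := by simp only [mul_assoc]
      map_zero' := by rw [map_zero, mul_zero, zero_mul]
      map_add' := fun F G => by rw [map_add, mul_add, add_mul]
      commutes' := fun c => by
        rw [AlgHomClass.commutes, Algebra.algebraMap_eq_smul_one, mul_smul_comm, mul_one,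
          smul_mul_assoc, hW]
      map_star' := fun F => by
        rw [map_star, star_mul, star_mul, star_star, mul_assoc] }
  let Ψ2 : C(T2, ℂ) →⋆ₐ[ℂ] (H →L[ℂ] H) := Φ.comp (ContinuousMap.compStarAlgHom' ℂ ℂ a)
  have h3 : Ψ1 = Ψ2 := by
    refine Phi_ext ?_ ?_
    · change W * Φ e1 * star W = Φ (e1.comp a)
      rw [h1, mul_assoc, hW, mul_one]
    · change W * Φ e2 * star W = Φ (e2.comp a)
      rw [h2, mul_assoc, hW, mul_one]
  have h4 : W * Φ F * star W = Φ (F.comp a) := DFunLike.congr_fun h3 F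
  rw [← h4, mul_assoc, hW', mul_one]

end Vale.Agent.P092.H885
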