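import Vale.Agent.P092.H885.RelT

/-!
Spectral gap for the pair `(SL₂ ⋉ ℤ², ℤ²)`: the theorem.
-/

set_option linter.all false

open scoped InnerProductSpace ComplexConjugate
open Filter Topology ContinuousLinearMap
open scoped CStarAlgebra

namespace Vale.Agent.P092.H885

variable {H : Type} [NormedAddCommGroup H] [InnerProductSpace ℂ H] [CompleteSpace H]
  {Φ : C(T2, ℂ) →⋆ₐ[ℂ] (H →L[ℂ] H)}

theorem J_eq_inner (v : H) (f : C(T2, ℝ)) : J Φ v f = (⟪v, Φ (rc f) v⟫_ℂ).re := rfl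

theorem mass_aux (v : H) (e : C(T2, ℂ)) (he : ∀ p : T2, ‖(e - 1) p‖ ≤
      2 * Real.pi * max ‖p.1‖ ‖p.2‖) {δ : ℝ} (hδ : 0 < δ) :
    ‖Φ e (Φ (rc (fB δ)) v) - Φ (rc (fB δ)) v‖ ≤ 2 * Real.pi * (2 * δ) * ‖v‖ := by
  have h1 : Φ e (Φ (rc (fB δ)) v) - Φ (rc (fB δ)) v = Φ ((e - 1) * rc (fB δ)) v := by
    rw [map_mul, map_sub, map_one, mulap, sub_apply, oneap]
  rw [h1]
  refine (le_opNorm _ _).trans ?_
  gcongr
  refine (NonUnitalStarAlgHom.norm_apply_le Φ _).trans ?_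
  rw [ContinuousMap.norm_le _ (by positivity)]
  intro p
  rw [ContinuousMap.mul_apply, norm_mul]
  have h2 : ‖rc (fB δ) p‖ = bump δ ‖p.1‖ ‖p.2‖ := by
    rw [rc_apply, Complex.norm_real, Real.norm_eq_abs]
    exact abs_of_nonneg (cl_nonneg _)
  rw [h2]
  have h3 : 0 ≤ bump δ ‖p.1‖ ‖p.2‖ := cl_nonneg _
  calc ‖(e - 1) p‖ * bump δ ‖p.1‖ ‖p.2‖
      ≤ 2 * Real.pi * max ‖p.1‖ ‖p.2‖ * bump δ ‖p.1‖ ‖p.2‖ := by gcongr; exact he p
    _ = 2 * Real.pi * (max ‖p.1‖ ‖p.2‖ * bump δ ‖p.1‖ ‖p.2‖) := by ring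
    _ ≤ 2 * Real.pi * (2 * δ) :=
        mul_le_mul_of_nonneg_left (bump_supp hδ) (by positivity)

/-- No mass at zero. -/
theorem mass_zero {v : H} (hv : ∀ η, Φ e1 η = η → Φ e2 η = η → ⟪η, v⟫_ℂ = 0) :
    Tendsto (fun k : ℕ => J Φ v (fB (1 / ((k : ℝ) + 1)))) atTop (𝓝 0) := by
  have hδ : ∀ k : ℕ, 0 < 1 / ((k : ℝ) + 1) := fun k => by positivity
  have hδt : Tendsto (fun k : ℕ => 1 / ((k : ℝ) + 1)) atTop (𝓝 0) :=
    tendsto_one_div_add_atTop_nhds_zero_nat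
  set a : ℕ → ℝ := fun k => J Φ v (fB (1 / ((k : ℝ) + 1))) with ha
  set w : ℕ → H := fun k => Φ (rc (fB (1 / ((k : ℝ) + 1)))) v with hw
  have hmono : ∀ k l : ℕ, k ≤ l → ∀ p : T2,
      (fB (1 / ((l : ℝ) + 1))) p ≤ (fB (1 / ((k : ℝ) + 1))) p := by
    intro k l hkl p
    refine bump_mono (hδ l) ?_ (norm_nonneg _)
    have : (k : ℝ) ≤ l := by exact_mod_cast hkl
    gcongr
  have hanti : Antitone a := fun k l hkl => J_mono v (hmono k l hkl)
  have hnn : ∀ k, 0 ≤ a k := fun k => J_nonneg v fun p => cl_nonneg _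
  have hbdd : BddBelow (Set.range a) := ⟨0, by rintro _ ⟨n, rfl⟩; exact hnn n⟩
  have hlim := tendsto_atTop_ciInf hanti hbdd
  have hdist : ∀ k l : ℕ, k ≤ l → ‖w k - w l‖ ^ 2 ≤ a k - a l := by
    intro k l hkl
    have e : w k - w l = Φ (rc (fB (1 / ((k : ℝ) + 1)) - fB (1 / ((l : ℝ) + 1)))) v := by
      rw [rc_sub, map_sub, sub_apply]
    have h1 := J_sq (Φ := Φ) v (rc (fB (1 / ((k : ℝ) + 1)) - fB (1 / ((l : ℝ) + 1))))
      ((fB (1 / ((k : ℝ) + 1)) - fB (1 / ((l : ℝ) + 1))) *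
        (fB (1 / ((k : ℝ) + 1)) - fB (1 / ((l : ℝ) + 1)))) (fun p => by
          rw [rc_apply, Complex.norm_real, Real.norm_eq_abs, sq_abs, sq]; rfl)
    rw [e, ← h1, ha]
    simp only
    rw [← J_sub]
    refine J_mono v fun p => ?_
    change ((fB (1 / ((k : ℝ) + 1))) p - (fB (1 / ((l : ℝ) + 1))) p) *
      ((fB (1 / ((k : ℝ) + 1))) p - (fB (1 / ((l : ℝ) + 1))) p) ≤
      (fB (1 / ((k : ℝ) + 1))) p - (fB (1 / ((l : ℝ) + 1))) p
    have h2 := hmono k l hkl p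
    have h3 : (fB (1 / ((k : ℝ) + 1))) p ≤ 1 := cl_le_one _
    have h4 : 0 ≤ (fB (1 / ((l : ℝ) + 1))) p := cl_nonneg _
    nlinarith
  have hcau : CauchySeq w := by
    rw [Metric.cauchySeq_iff']
    intro ε hε
    have h2 := hlim.eventually (gt_mem_nhds (show (⨅ i, a i) < (⨅ i, a i) + ε ^ 2 by
      have : 0 < ε ^ 2 := by positivity
      linarith))
    obtain ⟨N, hN⟩ := h2.exists
    refine ⟨N, fun n hn => ?_⟩
    rw [dist_comm, dist_eq_norm]
    have h3 := hdist N n hn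
    have h4 : (⨅ i, a i) ≤ a n := ciInf_le hbdd _
    have h5 : ‖w N - w n‖ ^ 2 < ε ^ 2 := by linarith
    exact lt_of_pow_lt_pow_left₀ 2 hε.le h5
  obtain ⟨η, hη⟩ := cauchySeq_tendsto_of_complete hcau
  have hfix : ∀ e : C(T2, ℂ), (∀ p : T2, ‖(e - 1) p‖ ≤ 2 * Real.pi * max ‖p.1‖ ‖p.2‖) →
      Φ e η = η := by
    intro e he
    have h1 : Tendsto (fun k => Φ e (w k) - w k) atTop (𝓝 (Φ e η - η)) :=
      (((Φ e).continuous.tendsto η).comp hη).sub hη
    have h2 : Tendsto (fun k => Φ e (w k) - w k) atTop (𝓝 0) := by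
      refine squeeze_zero_norm (fun k => mass_aux v e he (hδ k)) ?_
      have h3 := ((hδt.const_mul 2).const_mul (2 * Real.pi)).mul_const ‖v‖
      simpa using h3
    exact sub_eq_zero.mp (tendsto_nhds_unique h1 h2)
  have h1 : Φ e1 η = η := hfix e1 fun p => by
    refine ((T1.chord p.1).2).trans ?_
    have := Real.pi_pos
    gcongr
    exact le_max_left _ _
  have h2 : Φ e2 η = η := hfix e2 fun p => by
    refine ((T1.chord p.2).2).trans ?_
    have := Real.pi_pos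
    gcongr
    exact le_max_right _ _
  have h3 : Tendsto a atTop (𝓝 (⟪v, η⟫_ℂ).re) :=
    (Complex.continuous_re.tendsto _).comp (tendsto_const_nhds.inner hη)
  have h4 : ⟪v, η⟫_ℂ = 0 := by rw [← inner_conj_symm, hv η h1 h2, map_zero]
  rw [h4, Complex.zero_re] at h3
  exact h3

theorem norm_star_sub {W : H →L[ℂ] H} (hW : W * star W = 1) (hW' : star W * W = 1) (v : H) :
    ‖v - star W v‖ = ‖W v - v‖ := by
  have h1 : ∀ u : H, ‖W u‖ = ‖u‖ := by
    intro u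
    have h2 : ⟪W u, W u⟫_ℂ = ⟪u, u⟫_ℂ := by
      rw [← adjoint_inner_right, ← star_eq_adjoint, ← mulap, hW', oneap]
    rw [inner_self_eq_norm_sq_to_K, inner_self_eq_norm_sq_to_K] at h2
    have h3 : ‖W u‖ ^ 2 = ‖u‖ ^ 2 := by exact_mod_cast h2
    exact (pow_left_inj₀ (norm_nonneg _) (norm_nonneg _) two_ne_zero).mp h3
  rw [← h1 (v - star W v), map_sub, ← mulap, hW, oneap]

theorem norm_star_eq {W : H →L[ℂ] H} (hW : W * star W = 1) (v : H) : ‖star W v‖ = ‖v‖ := by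
  have h2 : ⟪star W v, star W v⟫_ℂ = ⟪v, v⟫_ℂ := by
    rw [star_eq_adjoint, adjoint_inner_left, ← star_eq_adjoint, ← mulap, hW, oneap]
  rw [inner_self_eq_norm_sq_to_K, inner_self_eq_norm_sq_to_K] at h2
  have h3 : ‖star W v‖ ^ 2 = ‖v‖ ^ 2 := by exact_mod_cast h2
  exact (pow_left_inj₀ (norm_nonneg _) (norm_nonneg _) two_ne_zero).mp h3

/-- one half of the estimate -/
theorem half_step {W : H →L[ℂ] H} {a a' : C(T2, T2)} (hW : W * star W = 1)
    (hW' : star W * W = 1) (ha : ∀ p, a (a' p) = p) (ha' : ∀ p, a' (a p) = p)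
    (h : ∀ F : C(T2, ℂ), W * Φ F = Φ (F.comp a) * W) (v : H) {f g n : C(T2, ℝ)} {c d : ℝ}
    (hf0 : ∀ p, 0 ≤ f p) (hf1 : ∀ p, f p ≤ 1) (hd : 0 ≤ d)
    (hpt : ∀ p, f (a' p) + f (a p) ≤ g p + 32 * d * n p) (hn : 16 * J Φ v n ≤ c ^ 2)
    (hWv : ‖W v - v‖ ≤ c) :
    2 * J Φ v f ≤ J Φ v g + 2 * d * c ^ 2 + 4 * c * ‖v‖ := by
  have h' : ∀ F : C(T2, ℂ), star W * Φ F = Φ (F.comp a') * star W := by
    intro F
    have h1 := h (F.comp a')
    have h2 : (F.comp a').comp a = F := by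
      ext p; change F (a' (a p)) = F p; rw [ha']
    rw [h2] at h1
    calc star W * Φ F = star W * (Φ F * W) * star W := by
          rw [mul_assoc, mul_assoc, hW, mul_one]
      _ = star W * (W * Φ (F.comp a')) * star W := by rw [h1]
      _ = (star W * W) * Φ (F.comp a') * star W := by simp only [mul_assoc]
      _ = _ := by rw [hW', one_mul]
  have c1 := J_cov (Φ := Φ) h hW v f
  have c2 := J_cov (Φ := Φ) h' (by rw [star_star]; exact hW') v f
  rw [star_star] at c2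
  have e1' := J_close (Φ := Φ) v (star W v) hf0 hf1
  have e2' := J_close (Φ := Φ) v (W v) hf0 hf1
  rw [norm_star_sub hW hW', norm_star_eq hW] at e1'
  have hnW : ‖W v‖ = ‖v‖ := by
    have h5 := norm_star_eq (W := star W) (by rw [star_star]; exact hW') v
    rwa [star_star] at h5
  rw [norm_sub_rev, hnW] at e2'
  have hm := J_mono (Φ := Φ) v (f := f.comp a' + f.comp a) (g := g + (32 * d) • n) (fun p => hpt p)
  rw [J_add, J_add, J_smul, c1, c2] at hm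
  have b1 := (abs_le.mp e1').2
  have b2 := (abs_le.mp e2').2
  have hv0 := norm_nonneg v
  have b3 : ‖W v - v‖ * (‖v‖ + ‖v‖) ≤ c * (‖v‖ + ‖v‖) := by gcongr
  have b4 : 2 * d * (16 * J Φ v n) ≤ 2 * d * c ^ 2 := by gcongr
  linarith

/-- **Relative property (T) with explicit constants**: for unitaries `U, V, W₁, W₂` satisfying the
relations of the translations and of two shears of `SL₂ ⋉ ℤ²`, a vector which is orthogonal to the
vectors fixed by `U` and `V` is moved by one of the four. -/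
theorem rel_gap {U V W1 W2 : H →L[ℂ] H} (hU : star U * U = 1) (hU' : U * star U = 1)
    (hV : star V * V = 1) (hV' : V * star V = 1) (hW1 : W1 * star W1 = 1)
    (hW1' : star W1 * W1 = 1) (hW2 : W2 * star W2 = 1) (hW2' : star W2 * W2 = 1)
    (hc : U * V = V * U) {m : ℕ} (hm : 3 ≤ m) (h1U : W1 * U = U * W1)
    (h1V : W1 * V = V * U ^ m * W1) (h2V : W2 * V = V * W2) (h2U : W2 * U = U * V ^ m * W2)
    {v : H} (hv : ∀ η, U η = η → V η = η → ⟪η, v⟫_ℂ = 0) {c : ℝ} (cU : ‖U v - v‖ ≤ c)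
    (cV : ‖V v - v‖ ≤ c) (c1 : ‖W1 v - v‖ ≤ c) (c2 : ‖W2 v - v‖ ≤ c) (hcv : 4 * m * c < ‖v‖) :
    False := by
  obtain ⟨Φ, rfl, rfl⟩ := exists_Phi hU hU' hV hV' hc
  have hm' : (3 : ℝ) ≤ m := by exact_mod_cast hm
  have hc0 : 0 ≤ c := (norm_nonneg _).trans cU
  have hv0 : 0 < ‖v‖ := lt_of_le_of_lt (by positivity) hcv
  have cov1 := cov_of_gen (Φ := Φ) (W := W1) (a := sh1 m) hW1 hW1' (by
      have : e1.comp (sh1 m) = e1 := by ext p; rfl
      rw [this, h1U]) (by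
      have : e2.comp (sh1 m) = e2 * e1 ^ m := by
        ext p
        change ((AddCircle.toCircle (p.2 + (m : ℤ) • p.1) : Circle) : ℂ) =
          ((AddCircle.toCircle p.2 : Circle) : ℂ) * ((AddCircle.toCircle p.1 : Circle) : ℂ) ^ m
        rw [AddCircle.toCircle_add, AddCircle.toCircle_zsmul, zpow_natCast, Circle.coe_mul,
          Circle.coe_pow]
      rw [this, map_mul, map_pow, h1V])
  have cov2 := cov_of_gen (Φ := Φ) (W := W2) (a := sh2 m) hW2 hW2' (by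
      have : e1.comp (sh2 m) = e1 * e2 ^ m := by
        ext p
        change ((AddCircle.toCircle (p.1 + (m : ℤ) • p.2) : Circle) : ℂ) =
          ((AddCircle.toCircle p.1 : Circle) : ℂ) * ((AddCircle.toCircle p.2 : Circle) : ℂ) ^ m
        rw [AddCircle.toCircle_add, AddCircle.toCircle_zsmul, zpow_natCast, Circle.coe_mul,
          Circle.coe_pow]
      rw [this, map_mul, map_pow, h2U]) (by
      have : e2.comp (sh2 m) = e2 := by ext p; rfl
      rw [this, h2V])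
  have inv1 : ∀ p, sh1 m (sh1 (-m) p) = p := fun p => by
    change (p.1, p.2 + (-(m : ℤ)) • p.1 + (m : ℤ) • p.1) = p
    rw [neg_smul, add_assoc, neg_add_cancel, add_zero]
  have inv1' : ∀ p, sh1 (-m) (sh1 m p) = p := fun p => by
    change (p.1, p.2 + (m : ℤ) • p.1 + (-(m : ℤ)) • p.1) = p
    rw [neg_smul, add_assoc, add_neg_cancel, add_zero]
  have inv2 : ∀ p, sh2 m (sh2 (-m) p) = p := fun p => by
    change (p.1 + (-(m : ℤ)) • p.2 + (m : ℤ) • p.2, p.2) = p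
    rw [neg_smul, add_assoc, neg_add_cancel, add_zero]
  have inv2' : ∀ p, sh2 (-m) (sh2 m p) = p := fun p => by
    change (p.1 + (m : ℤ) • p.2 + (-(m : ℤ)) • p.2, p.2) = p
    rw [neg_smul, add_assoc, add_neg_cancel, add_zero]
  have key : ∀ δ : ℝ, (hδ : 0 < δ) →
      ‖v‖ ^ 2 ≤ J Φ v (fB δ) + 4 * m ^ 2 * c ^ 2 + 8 * c * ‖v‖ := by
    intro δ hδ
    have s2 := half_step (Φ := Φ) (W := W2) (a := sh2 m) (a' := sh2 (-m)) hW2 hW2' inv2 inv2'
      cov2 v (f := fY δ hδ) (g := fX δ hδ) (n := n2) (c := c) (d := (m : ℝ) ^ 2)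
      (fun p => cl_nonneg _) (fun p => cl_le_one _) (by positivity)
      (fun p => by
        have h := cone_ineq hδ hm p.1 p.2
        change cone δ ‖p.2‖ ‖p.1 + (-(m : ℤ)) • p.2‖ + cone δ ‖p.2‖ ‖p.1 + (m : ℤ) • p.2‖ ≤
          cone δ ‖p.1‖ ‖p.2‖ + 32 * (m : ℝ) ^ 2 * ‖p.2‖ ^ 2
        rw [neg_smul, natCast_zsmul, ← sub_eq_add_neg]
        calc _ ≤ _ := h
          _ = _ := by ring)
      ((J_n2 v).trans (pow_le_pow_left₀ (norm_nonneg _) cV 2)) c2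
    have s1 := half_step (Φ := Φ) (W := W1) (a := sh1 m) (a' := sh1 (-m)) hW1 hW1' inv1 inv1'
      cov1 v (f := fX δ hδ) (g := fY δ hδ) (n := n1) (c := c) (d := (m : ℝ) ^ 2)
      (fun p => cl_nonneg _) (fun p => cl_le_one _) (by positivity)
      (fun p => by
        have h := cone_ineq hδ hm p.2 p.1
        change cone δ ‖p.1‖ ‖p.2 + (-(m : ℤ)) • p.1‖ + cone δ ‖p.1‖ ‖p.2 + (m : ℤ) • p.1‖ ≤
          cone δ ‖p.2‖ ‖p.1‖ + 32 * (m : ℝ) ^ 2 * ‖p.1‖ ^ 2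
        rw [neg_smul, natCast_zsmul, ← sub_eq_add_neg]
        calc _ ≤ _ := h
          _ = _ := by ring)
      ((J_n1 v).trans (pow_le_pow_left₀ (norm_nonneg _) cU 2)) c1
    have s3 := J_mono (Φ := Φ) v (f := 1) (g := fX δ hδ + fY δ hδ + fB δ) (fun p => by
      have := cone_sum hδ (norm_nonneg p.1) (norm_nonneg p.2)
      exact this)
    rw [J_one, J_add, J_add] at s3
    linarith
  have hlim := mass_zero (Φ := Φ) hv
  have hfin : ‖v‖ ^ 2 ≤ 0 + 4 * m ^ 2 * c ^ 2 + 8 * c * ‖v‖ := by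
    refine ge_of_tendsto' ((hlim.add_const _).add_const _) fun k => ?_
    exact key _ (by positivity)
  have h6 : (4 * m * c) ^ 2 ≤ ‖v‖ ^ 2 := pow_le_pow_left₀ (by positivity) hcv.le 2
  have h7 : 12 * c ≤ 4 * m * c := by nlinarith
  have h8 : 12 * c < ‖v‖ := lt_of_le_of_lt h7 hcv
  nlinarith

end Vale.Agent.P092.H885
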