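import Vale.Agent.P092.H885.Conv
import Vale.Agent.P092.H885.Decay
import Vale.Agent.P092.H885.RelT2

/-!
The case of finite index subgroups of `SL_n(ℤ)`.
-/

set_option linter.all false

open scoped InnerProductSpace
open Filter Topology ContinuousLinearMap

namespace Vale.Agent.P092.H885

open Vale.Agent.P092.H160

section general

variable {Γ : Type} [Group Γ] {H : Type} [NormedAddCommGroup H] [InnerProductSpace ℂ H]
    [CompleteSpace H] {π : Γ →* (H →L[ℂ] H)}

theorem pow_iter (x : Γ) (k : ℕ) (v : H) : (π x)^[k] v = π (x ^ k) v := by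
  induction k generalizing v with
  | zero => rw [pow_zero, map_one]; rfl
  | succ k ih => rw [Function.iterate_succ_apply, ih, pow_succ, map_mul]; rfl

/-- If the coefficient averages to zero along the powers of `x` then the vector is orthogonal to the
vectors fixed by `x`. -/
theorem orth_of_avg (hπ : ∀ g, adjoint (π g) = π g⁻¹) (x : Γ) {ξ : H}
    (h : Tendsto (fun N : ℕ => (∑ k ∈ Finset.range N, (⟪ξ, π (x ^ (k + 1)) ξ⟫_ℂ).re) / N) atTop (𝓝 0))
    {η : H} (hη : π x η = η) : ⟪η, ξ⟫_ℂ = 0 := by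
  have hf : ‖π x‖ ≤ 1 := opNorm_le_bound _ zero_le_one fun v => by rw [u_norm hπ, one_mul]
  set y := π x ξ with hy
  have h1 := ContinuousLinearMap.tendsto_birkhoffAverage_orthogonalProjection (π x) hf y
  set ζ : H := (((π x).eqLocus (1 : H →L[ℂ] H)).orthogonalProjectionOnto y : H) with hζ
  have hζf : π x ζ = ζ := by
    have := (((π x).eqLocus (1 : H →L[ℂ] H)).orthogonalProjectionOnto y).2
    exact this
  have hproj : ∀ u : H, π x u = u → ⟪u, y⟫_ℂ = ⟪u, ζ⟫_ℂ := by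
    intro u hu
    have hmem : u ∈ (π x).eqLocus (1 : H →L[ℂ] H) := hu
    have h2 : y - ζ ∈ ((π x).eqLocus (1 : H →L[ℂ] H))ᗮ :=
      Submodule.sub_starProjection_mem_orthogonal (K := (π x).eqLocus (1 : H →L[ℂ] H)) y
    have h3 := (Submodule.mem_orthogonal _ _).mp h2 u hmem
    rw [inner_sub_right] at h3
    exact sub_eq_zero.mp h3
  have hfix : ∀ u : H, π x u = u → ⟪u, y⟫_ℂ = ⟪u, ξ⟫_ℂ := by
    intro u hu
    rw [hy]
    have h2 := u_left hπ x⁻¹ u ξ
    rw [inv_inv] at h2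
    rw [← h2]
    congr 1
    have h3 := u_inv hπ x u
    rwa [hu] at h3
  have h2 : Tendsto (fun N : ℕ => (⟪ξ, birkhoffAverage ℂ (π x) _root_.id N y⟫_ℂ).re) atTop
      (𝓝 (⟪ξ, ζ⟫_ℂ).re) :=
    (Complex.continuous_re.tendsto _).comp (tendsto_const_nhds.inner h1)
  have h3 : ∀ N : ℕ, (⟪ξ, birkhoffAverage ℂ (π x) _root_.id N y⟫_ℂ).re =
      (∑ k ∈ Finset.range N, (⟪ξ, π (x ^ (k + 1)) ξ⟫_ℂ).re) / N := by
    intro N
    rw [birkhoffAverage, birkhoffSum, inner_smul_right, inner_sum]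
    have e : ((N : ℂ))⁻¹ = (((N : ℝ)⁻¹ : ℝ) : ℂ) := by push_cast; rfl
    rw [e, Complex.re_ofReal_mul, Complex.re_sum, div_eq_inv_mul]
    congr 1
    refine Finset.sum_congr rfl fun k _ => ?_
    congr 2
    change (π x)^[k] y = _
    rw [pow_iter, hy, pow_succ, map_mul]
    rfl
  simp only [h3] at h2
  have h4 : (⟪ξ, ζ⟫_ℂ).re = 0 := tendsto_nhds_unique h2 h
  have h5 : ⟪ζ, ξ⟫_ℂ = ⟪ζ, ζ⟫_ℂ := by rw [← hfix ζ hζf, hproj ζ hζf]
  have h6 : ζ = 0 := by
    have h7 : (⟪ζ, ζ⟫_ℂ).re = 0 := by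
      rw [← h5, ← inner_conj_symm, Complex.conj_re, h4]
    rw [inner_self_eq_norm_sq_to_K] at h7
    have h8 : ((‖ζ‖ : ℂ)) ^ 2 = ((‖ζ‖ ^ 2 : ℝ) : ℂ) := by push_cast; rfl
    have h9 : (((‖ζ‖ : ℂ)) ^ 2).re = 0 := h7
    rw [h8, Complex.ofReal_re] at h9
    exact norm_eq_zero.mp ((pow_eq_zero_iff two_ne_zero).mp h9)
  rw [← hfix η hη, hproj η hη, h6, inner_zero_right]

end general

variable {Γ Λ : Type} [Group Γ] [Group Λ]

theorem p4_le_height (θ : LG Γ ≃⋆ₐ[ℂ] LG Λ) (hF : Frame (alphaOf θ)) (g : Γ) :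
    p4 (alphaOf θ) g ≤ height (θ (uu g)) := by
  set v : Ell2 Λ := alphaOf θ g (dl 1) with hv
  have hn : ‖v‖ = 1 := by rw [hv, hF.reg.norm_map, norm_dl]
  have hle1 : ∀ s, ‖v s‖ ≤ 1 := fun s => hn ▸ norm_coord_le v s
  have hbdd : BddAbove (Set.range fun s => ‖v s‖) := ⟨1, by rintro _ ⟨s, rfl⟩; exact hle1 s⟩
  have hh : height (θ (uu g)) = ⨆ s, ‖v s‖ := height_eq _
  have hle : ∀ s, ‖v s‖ ≤ height (θ (uu g)) := fun s => by rw [hh]; exact le_ciSup hbdd s
  have h0 : 0 ≤ height (θ (uu g)) := (norm_nonneg _).trans (hle 1)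
  have h1 : ∀ s, ‖v s‖ ^ 4 ≤ height (θ (uu g)) * ‖v s‖ ^ 2 := by
    intro s
    have a := norm_nonneg (v s)
    have b := hle1 s
    have c := hle s
    have d : ‖v s‖ ^ 2 ≤ height (θ (uu g)) := by nlinarith
    calc ‖v s‖ ^ 4 = ‖v s‖ ^ 2 * ‖v s‖ ^ 2 := by ring
      _ ≤ _ := by gcongr
  have h2 : ∑' s, ‖v s‖ ^ 4 ≤ ∑' s, height (θ (uu g)) * ‖v s‖ ^ 2 :=
    (summable_p4 v hn).tsum_le_tsum h1 ((summable_sq v).mul_left _)
  rw [tsum_mul_left, ← norm_sq, hn, one_pow, mul_one] at h2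
  exact h2

end Vale.Agent.P092.H885

namespace Vale.Agent.P092.H885

open Matrix Vale.Agent.P092.H160

section rel

variable {n : ℕ} {Γ : Subgroup (Matrix.SpecialLinearGroup (Fin n) ℤ)}

theorem gext {a b : Γ} (h : ((a : Matrix.SpecialLinearGroup (Fin n) ℤ) : Matrix (Fin n) (Fin n) ℤ) =
    ((b : Matrix.SpecialLinearGroup (Fin n) ℤ) : Matrix (Fin n) (Fin n) ℤ)) : a = b :=
  Subtype.ext (Subtype.ext h)

theorem mat_mul (a b : Γ) :
    (((a * b : Γ) : Matrix.SpecialLinearGroup (Fin n) ℤ) : Matrix (Fin n) (Fin n) ℤ) =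
    ((a : Matrix.SpecialLinearGroup (Fin n) ℤ) : Matrix (Fin n) (Fin n) ℤ) *
    ((b : Matrix.SpecialLinearGroup (Fin n) ℤ) : Matrix (Fin n) (Fin n) ℤ) := rfl

theorem mat_pow {a : Γ} {i j : Fin n} (hij : i ≠ j) {c : ℤ}
    (ha : ((a : Matrix.SpecialLinearGroup (Fin n) ℤ) : Matrix (Fin n) (Fin n) ℤ) =
      Matrix.transvection i j c) (m : ℕ) :
    (((a ^ m : Γ) : Matrix.SpecialLinearGroup (Fin n) ℤ) : Matrix (Fin n) (Fin n) ℤ) =
      Matrix.transvection i j (m * c) := by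
  induction m with
  | zero =>
    rw [pow_zero, Nat.cast_zero, zero_mul, Matrix.transvection_zero]; rfl
  | succ m ih =>
    rw [pow_succ, mat_mul, ih, ha, Matrix.transvection_mul_transvection_same _ _ hij]
    congr 1
    push_cast
    ring

theorem comm_rel {i j l : Fin n} (hij : i ≠ j) (hjl : j ≠ l) (hil : i ≠ l) (c d : ℤ) :
    Matrix.transvection i l c * Matrix.transvection j l d =
      Matrix.transvection j l d * Matrix.transvection i l c ∧
    Matrix.transvection i j c * Matrix.transvection i l d =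
      Matrix.transvection i l d * Matrix.transvection i j c ∧
    Matrix.transvection i j c * Matrix.transvection j l d =
      Matrix.transvection j l d * Matrix.transvection i l (c * d) * Matrix.transvection i j c := by
  simp only [Matrix.transvection, mul_add, add_mul, mul_one, one_mul]
  simp only [Matrix.single_mul_single_same, ne_eq, hij, hij.symm, hjl, hjl.symm, hil, hil.symm,
    not_false_eq_true, Matrix.single_mul_single_of_ne, add_zero, mul_zero, zero_mul, Matrix.mul_zero,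
    Matrix.zero_mul]
  refine ⟨by abel, by abel, by abel⟩

end rel

end Vale.Agent.P092.H885

namespace Vale.Agent.P092.H885

open Matrix Vale.Agent.P092.H160

section unip

variable {n : ℕ} {Γ : Subgroup (Matrix.SpecialLinearGroup (Fin n) ℤ)} {H : Type}
  [NormedAddCommGroup H] [InnerProductSpace ℂ H] [CompleteSpace H] {π : Γ →* (H →L[ℂ] H)}

/-- nontrivial unipotent elements -/
def Unip (x : Γ) : Prop := x ≠ 1 ∧
  IsNilpotent (((x : Matrix.SpecialLinearGroup (Fin n) ℤ) : Matrix (Fin n) (Fin n) ℤ) - 1)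

theorem unip_conj {x : Γ} (hx : Unip x) (g : Γ) : Unip (g * x * g⁻¹) := by
  refine ⟨fun h => hx.1 ?_, ?_⟩
  · rw [mul_inv_eq_one] at h
    exact mul_eq_left.mp h
  · set G : Matrix (Fin n) (Fin n) ℤ := ((g : Matrix.SpecialLinearGroup (Fin n) ℤ) :
      Matrix (Fin n) (Fin n) ℤ) with hG
    set G' : Matrix (Fin n) (Fin n) ℤ := (((g⁻¹ : Γ) : Matrix.SpecialLinearGroup (Fin n) ℤ) :
      Matrix (Fin n) (Fin n) ℤ) with hG'
    set X : Matrix (Fin n) (Fin n) ℤ := ((x : Matrix.SpecialLinearGroup (Fin n) ℤ) :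
      Matrix (Fin n) (Fin n) ℤ) with hX
    have h1 : G * G' = 1 := by rw [hG, hG', ← mat_mul, mul_inv_cancel]; rfl
    have h2 : G' * G = 1 := by rw [hG, hG', ← mat_mul, inv_mul_cancel]; rfl
    have h3 : (((g * x * g⁻¹ : Γ) : Matrix.SpecialLinearGroup (Fin n) ℤ) :
        Matrix (Fin n) (Fin n) ℤ) - 1 = G * (X - 1) * G' := by
      rw [mat_mul, mat_mul, mul_sub, mul_one, sub_mul, h1]
    rw [h3]
    obtain ⟨k, hk⟩ := hx.2
    refine ⟨k, ?_⟩
    have h4 : ∀ k : ℕ, (G * (X - 1) * G') ^ k = G * (X - 1) ^ k * G' := by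
      intro k
      induction k with
      | zero => rw [pow_zero, pow_zero, mul_one, h1]
      | succ k ih =>
        rw [pow_succ, ih, pow_succ]
        calc G * (X - 1) ^ k * G' * (G * (X - 1) * G') =
            G * (X - 1) ^ k * (G' * G) * (X - 1) * G' := by simp only [mul_assoc]
          _ = _ := by rw [h2, mul_one]; simp only [mul_assoc]
    rw [h4, hk, mul_zero, zero_mul]

/-- the vectors fixed by some nontrivial unipotent -/
def uset (π : Γ →* (H →L[ℂ] H)) : Set H := {η | ∃ x : Γ, Unip x ∧ π x η = η}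

/-- the orthogonal complement of the vectors fixed by some nontrivial unipotent -/
noncomputable def uperp (π : Γ →* (H →L[ℂ] H)) : Submodule ℂ H := (Submodule.span ℂ (uset π))ᗮ

theorem mem_uperp {v : H} : v ∈ uperp π ↔ ∀ η ∈ uset π, ⟪η, v⟫_ℂ = 0 := by
  rw [uperp, Submodule.mem_orthogonal]
  constructor
  · intro h η hη
    exact h η (Submodule.subset_span hη)
  · intro h η hη
    induction hη using Submodule.span_induction with
    | mem x hx => exact h x hx
    | zero => rw [inner_zero_left]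
    | add x y _ _ hx hy => rw [inner_add_left, hx, hy, add_zero]
    | smul c x _ hx => rw [inner_smul_left, hx, mul_zero]

theorem uperp_inv (hπ : ∀ g, adjoint (π g) = π g⁻¹) (g : Γ) {v : H} (hv : v ∈ uperp π) :
    π g v ∈ uperp π := by
  rw [mem_uperp] at hv ⊢
  rintro η ⟨x, hx, hη⟩
  have h1 := u_left hπ g⁻¹ η v
  rw [inv_inv] at h1
  rw [← h1]
  refine hv _ ⟨g⁻¹ * x * g⁻¹⁻¹, unip_conj hx g⁻¹, ?_⟩
  rw [map_mul, map_mul, inv_inv]
  change π g⁻¹ (π x (π g (π g⁻¹ η))) = _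
  have h2 := u_inv hπ g⁻¹ η
  rw [inv_inv] at h2
  rw [h2, hη]

theorem unip_transvection {s : Γ} {i j : Fin n} (hij : i ≠ j) {c : ℤ} (hc : c ≠ 0)
    (hs : ((s : Matrix.SpecialLinearGroup (Fin n) ℤ) : Matrix (Fin n) (Fin n) ℤ) =
      Matrix.transvection i j c) : Unip s := by
  refine ⟨?_, 2, ?_⟩
  · rintro rfl
    have h1 : (1 : Matrix (Fin n) (Fin n) ℤ) = Matrix.transvection i j c := hs
    have h2 := congrFun (congrFun h1 i) j
    rw [Matrix.one_apply_ne hij, Matrix.transvection, Matrix.add_apply, Matrix.one_apply_ne hij,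
      Matrix.single_apply_same, zero_add] at h2
    exact hc h2.symm
  · rw [hs, Matrix.transvection, add_sub_cancel_left, sq, Matrix.single_mul_single_of_ne _ _ _ _ hij.symm]

/-- **The gap**: on the orthogonal complement of the vectors fixed by unipotents, one of the four
elementary matrices moves every vector by at least `1/(4m)` of its norm. -/
theorem sln_gap (hπ : ∀ g, adjoint (π g) = π g⁻¹) {i j l : Fin n} (hij : i ≠ j) (hjl : j ≠ l)
    (hil : i ≠ l) {m : ℕ} (hm : 3 ≤ m) {k : ℤ} (hk : k ≠ 0) {s1 s2 s3 s4 : Γ}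
    (h1 : ((s1 : Matrix.SpecialLinearGroup (Fin n) ℤ) : Matrix (Fin n) (Fin n) ℤ) =
      Matrix.transvection i j (m : ℤ))
    (h2 : ((s2 : Matrix.SpecialLinearGroup (Fin n) ℤ) : Matrix (Fin n) (Fin n) ℤ) =
      Matrix.transvection j i (m : ℤ))
    (h3 : ((s3 : Matrix.SpecialLinearGroup (Fin n) ℤ) : Matrix (Fin n) (Fin n) ℤ) =
      Matrix.transvection i l k)
    (h4 : ((s4 : Matrix.SpecialLinearGroup (Fin n) ℤ) : Matrix (Fin n) (Fin n) ℤ) =
      Matrix.transvection j l k) {v : H} (hv : v ∈ uperp π) :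
    ∃ s ∈ ({s1, s2, s3, s4} : Set Γ), 1 / (4 * m) * ‖v‖ ≤ ‖π s v - v‖ := by
  by_contra hcon
  push Not at hcon
  have b1 := hcon s1 (by simp)
  have b2 := hcon s2 (by simp)
  have b3 := hcon s3 (by simp)
  have b4 := hcon s4 (by simp)
  have hm0 : (0 : ℝ) < m := by
    have : (3 : ℝ) ≤ m := by exact_mod_cast hm
    linarith
  have r0 : s3 * s4 = s4 * s3 := gext (by
    rw [mat_mul, mat_mul, h3, h4]; exact (comm_rel hij hjl hil k k).1)
  have r1 : s1 * s3 = s3 * s1 := gext (by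
    rw [mat_mul, mat_mul, h1, h3]; exact (comm_rel hij hjl hil m k).2.1)
  have r2 : s1 * s4 = s4 * s3 ^ m * s1 := gext (by
    rw [mat_mul, mat_mul, mat_mul, mat_pow hil h3, h1, h4]
    exact (comm_rel hij hjl hil m k).2.2)
  have r3 : s2 * s4 = s4 * s2 := gext (by
    rw [mat_mul, mat_mul, h2, h4]; exact (comm_rel hij.symm hil hjl m k).2.1)
  have r4 : s2 * s3 = s3 * s4 ^ m * s2 := gext (by
    rw [mat_mul, mat_mul, mat_mul, mat_pow hjl h4, h2, h3]
    exact (comm_rel hij.symm hil hjl m k).2.2)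
  have hu : ∀ g : Γ, star (π g) * π g = 1 := fun g => by
    rw [star_eq_adjoint, hπ, ← map_mul, inv_mul_cancel, map_one]
  have hu' : ∀ g : Γ, π g * star (π g) = 1 := fun g => by
    rw [star_eq_adjoint, hπ, ← map_mul, mul_inv_cancel, map_one]
  -- the largest displacement
  set c := max (max ‖π s1 v - v‖ ‖π s2 v - v‖) (max ‖π s3 v - v‖ ‖π s4 v - v‖) with hc
  have hcv : c < 1 / (4 * m) * ‖v‖ := max_lt (max_lt b1 b2) (max_lt b3 b4)
  refine rel_gap (U := π s3) (V := π s4) (W1 := π s1) (W2 := π s2) (hu _) (hu' _) (hu _) (hu' _)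
    (hu' _) (hu _) (hu' _) (hu _) ?_ hm ?_ ?_ ?_ ?_ (v := v) ?_ (c := c) ?_ ?_ ?_ ?_ ?_
  · rw [← map_mul, r0, map_mul]
  · rw [← map_mul, r1, map_mul]
  · rw [← map_mul, r2, map_mul, map_mul, map_pow]
  · rw [← map_mul, r3, map_mul]
  · rw [← map_mul, r4, map_mul, map_mul, map_pow]
  · intro η hη _
    exact mem_uperp.mp hv η ⟨s3, unip_transvection hil hk h3, hη⟩
  · exact (le_max_left _ _).trans (le_max_right _ _)
  · exact (le_max_right _ _).trans (le_max_right _ _)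
  · exact (le_max_left _ _).trans (le_max_left _ _)
  · exact (le_max_right _ _).trans (le_max_left _ _)
  · calc 4 * m * c < 4 * m * (1 / (4 * m) * ‖v‖) := by gcongr
      _ = ‖v‖ := by field_simp

end unip

end Vale.Agent.P092.H885
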