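import Vale.Agent.P092.H885.Gap

/-!
The random walk averages of a coefficient of a vector orthogonal to the invariant vectors tend to
zero.
-/

set_option linter.all false

open scoped InnerProductSpace
open Filter Topology ContinuousLinearMap

namespace Vale.Agent.P092.H885

variable {Γ : Type} [Group Γ] {H : Type} [NormedAddCommGroup H] [InnerProductSpace ℂ H]
    [CompleteSpace H] {π : Γ →* (H →L[ℂ] H)}

theorem av_cont (Q : Finset Γ) : Continuous (av π Q) := by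
  unfold av
  fun_prop

variable (hπ : ∀ g, adjoint (π g) = π g⁻¹)

include hπ

theorem av_le (Q : Finset Γ) (hQ : Q.Nonempty) (v : H) : (⟪v, av π Q v⟫_ℂ).re ≤ ‖v‖ ^ 2 := by
  rw [av_quad hπ Q hQ]
  have h1 : 0 ≤ (∑ s ∈ Q, ‖π s v - v‖ ^ 2) / (4 * Q.card) := by positivity
  linarith

theorem av_sq (Q : Finset Γ) (hQ : Q.Nonempty) (v : H) :
    ‖av π Q v‖ ^ 2 ≤ (⟪v, av π Q v⟫_ℂ).re := by
  have h3 := av_cs hπ Q hQ v
  have h4 := av_nonneg hπ Q hQ v
  have h5 := av_le hπ Q hQ (av π Q v)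
  by_cases h0 : ‖av π Q v‖ = 0
  · rw [h0]; simpa using h4
  · have h7 : 0 < ‖av π Q v‖ ^ 2 := by positivity
    have h9 : (‖av π Q v‖ ^ 2) * ‖av π Q v‖ ^ 2 ≤ (⟪v, av π Q v⟫_ℂ).re * ‖av π Q v‖ ^ 2 := by
      calc _ = (‖av π Q v‖ ^ 2) ^ 2 := by ring
        _ ≤ _ := h3
        _ ≤ _ := by gcongr
    exact le_of_mul_le_mul_right h9 h7

theorem av_pair (Q : Finset Γ) (u v : H) (m : ℕ) :
    ⟪(av π Q)^[m] u, v⟫_ℂ = ⟪u, (av π Q)^[m] v⟫_ℂ := by
  induction m generalizing v with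
  | zero => rfl
  | succ m ih =>
    rw [Function.iterate_succ_apply', Function.iterate_succ_apply, ← av_symm hπ, ih]

theorem soft_decay {Q : Finset Γ} (hQ : Q.Nonempty) (hgen : Subgroup.closure (Q : Set Γ) = ⊤)
    {ξ : H} (hξ : ∀ η, (∀ g, π g η = η) → ⟪η, ξ⟫_ℂ = 0) :
    Tendsto (fun n : ℕ => (avg Q)^[n] (fun g => (⟪ξ, π g ξ⟫_ℂ).re) 1) atTop (𝓝 0) := by
  set x : ℕ → H := fun n => (av π Q)^[n] ξ with hx
  set a : ℕ → ℝ := fun n => (⟪ξ, x n⟫_ℂ).re with ha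
  have hval : ∀ n : ℕ, (avg Q)^[n] (fun g => (⟪ξ, π g ξ⟫_ℂ).re) 1 = a n := by
    intro n
    rw [avg_iter]
    have h3 : π 1 ((av π Q)^[n] ξ) = (av π Q)^[n] ξ := by rw [map_one]; rfl
    change (⟪ξ, π 1 ((av π Q)^[n] ξ)⟫_ℂ).re = _
    rw [h3]
  simp only [hval]
  have hxs : ∀ n, x (n + 1) = av π Q (x n) := fun n => Function.iterate_succ_apply' _ _ _
  have hpair : ∀ m n, ⟪x m, x n⟫_ℂ = ⟪ξ, x (m + n)⟫_ℂ := by
    intro m n
    have h1 : x (m + n) = (av π Q)^[m] (x n) := Function.iterate_add_apply _ _ _ _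
    rw [h1]
    exact av_pair hπ Q _ _ _
  have heven : ∀ k, a (k + k) = ‖x k‖ ^ 2 := by
    intro k
    have h1 := hpair k k
    rw [inner_self_eq_norm_sq_to_K] at h1
    change (⟪ξ, x (k + k)⟫_ℂ).re = _
    rw [← h1]
    have h5 : ((‖x k‖ : ℂ)) ^ 2 = ((‖x k‖ ^ 2 : ℝ) : ℂ) := by push_cast; rfl
    change (((‖x k‖ : ℂ)) ^ 2).re = _
    rw [h5, Complex.ofReal_re]
  have hodd : ∀ k, a (k + (k + 1)) = (⟪x k, av π Q (x k)⟫_ℂ).re := by
    intro k
    rw [← hxs, hpair]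
  have hdec : ∀ n, a (n + 1) ≤ a n := by
    intro n
    rcases Nat.even_or_odd' n with ⟨k, rfl | rfl⟩
    · have e1 : 2 * k + 1 = k + (k + 1) := by ring
      rw [e1, hodd, two_mul, heven]
      exact av_le hπ Q hQ _
    · have e1 : 2 * k + 1 + 1 = (k + 1) + (k + 1) := by ring
      have e2 : 2 * k + 1 = k + (k + 1) := by ring
      rw [e1, e2, hodd, heven, hxs]
      exact av_sq hπ Q hQ _
  have hanti : Antitone a := antitone_nat_of_succ_le hdec
  have hnn : ∀ n, 0 ≤ a n := by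
    intro n
    have h1 : a (n + n) ≤ a n := hanti (by omega)
    rw [heven] at h1
    exact (by positivity : (0 : ℝ) ≤ ‖x n‖ ^ 2).trans h1
  have hbdd : BddBelow (Set.range a) := ⟨0, by rintro _ ⟨n, rfl⟩; exact hnn n⟩
  have hlim := tendsto_atTop_ciInf hanti hbdd
  have hdist : ∀ m n, m ≤ n → ‖x n - x m‖ ^ 2 ≤ a (m + m) - a (n + n) := by
    intro m n hmn
    have h1 := norm_sub_sq (𝕜 := ℂ) (x n) (x m)
    have h2 : (⟪x n, x m⟫_ℂ).re = a (n + m) := by rw [hpair]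
    have h3 : ‖x n - x m‖ ^ 2 = ‖x n‖ ^ 2 - 2 * (⟪x n, x m⟫_ℂ).re + ‖x m‖ ^ 2 := h1
    rw [h3, h2, ← heven, ← heven]
    have h4 : a (n + n) ≤ a (n + m) := hanti (by omega)
    linarith
  have hcau : CauchySeq x := by
    rw [Metric.cauchySeq_iff']
    intro ε hε
    have h1 : Tendsto (fun n => a (n + n)) atTop (𝓝 (⨅ i, a i)) :=
      hlim.comp (tendsto_atTop_mono (fun n => Nat.le_add_right n n) tendsto_id)
    have h2 := h1.eventually (gt_mem_nhds (show (⨅ i, a i) < (⨅ i, a i) + ε ^ 2 by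
      have : 0 < ε ^ 2 := by positivity
      linarith))
    obtain ⟨N, hN⟩ := h2.exists
    refine ⟨N, fun n hn => ?_⟩
    rw [dist_eq_norm]
    have h3 := hdist N n hn
    have h4 : (⨅ i, a i) ≤ a (n + n) := ciInf_le hbdd _
    have h5 : ‖x n - x N‖ ^ 2 < ε ^ 2 := by linarith
    exact lt_of_pow_lt_pow_left₀ 2 hε.le h5
  obtain ⟨η, hη⟩ := cauchySeq_tendsto_of_complete hcau
  have hfix : av π Q η = η := by
    have h1 : Tendsto (fun n => x (n + 1)) atTop (𝓝 η) := hη.comp (tendsto_add_atTop_nat 1)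
    have h2 : Tendsto (fun n => av π Q (x n)) atTop (𝓝 (av π Q η)) :=
      ((av_cont Q).tendsto η).comp hη
    simp only [hxs] at h1
    exact tendsto_nhds_unique h2 h1
  have hQfix : ∀ s ∈ Q, π s η = η := by
    have h1 := av_quad hπ Q hQ η
    rw [hfix, inner_self_eq_norm_sq_to_K] at h1
    have h5 : ((‖η‖ : ℂ)) ^ 2 = ((‖η‖ ^ 2 : ℝ) : ℂ) := by push_cast; rfl
    have h6 : (((‖η‖ : ℂ)) ^ 2).re = ‖η‖ ^ 2 - (∑ s ∈ Q, ‖π s η - η‖ ^ 2) / (4 * Q.card) := h1
    rw [h5, Complex.ofReal_re] at h6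
    have hm : (0 : ℝ) < Q.card := by exact_mod_cast hQ.card_pos
    have h7 : (∑ s ∈ Q, ‖π s η - η‖ ^ 2) / (4 * Q.card) = 0 := by linarith
    have h8 : ∑ s ∈ Q, ‖π s η - η‖ ^ 2 = 0 := by
      rcases div_eq_zero_iff.mp h7 with h | h
      · exact h
      · exact absurd h (mul_ne_zero four_ne_zero hm.ne')
    intro s hs
    have h9 := (Finset.sum_eq_zero_iff_of_nonneg (fun _ _ => by positivity)).mp h8 s hs
    have h10 : ‖π s η - η‖ = 0 := (pow_eq_zero_iff two_ne_zero).mp h9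
    exact sub_eq_zero.mp (norm_eq_zero.mp h10)
  have hall : ∀ g, π g η = η := by
    intro g
    have hg : g ∈ Subgroup.closure (Q : Set Γ) := by rw [hgen]; trivial
    induction hg using Subgroup.closure_induction with
    | mem s hs => exact hQfix s hs
    | one => rw [map_one]; rfl
    | mul g h _ _ ihg ihh =>
      rw [map_mul]
      change π g (π h η) = η
      rw [ihh, ihg]
    | inv g _ ih =>
      have h1 := u_inv hπ g η
      rwa [ih] at h1
  have h1 : Tendsto a atTop (𝓝 (⟪ξ, η⟫_ℂ).re) :=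
    (Complex.continuous_re.tendsto _).comp (tendsto_const_nhds.inner hη)
  have h2 : ⟪ξ, η⟫_ℂ = 0 := by rw [← inner_conj_symm, hξ η hall, map_zero]
  rw [h2, Complex.zero_re] at h1
  exact h1

omit hπ in
theorem avg_lower {Q : Finset Γ} (hQ : Q.Nonempty) {c : ℝ} {f : Γ → ℝ} (hf : ∀ g, c ≤ f g)
    (n : ℕ) (g : Γ) : c ≤ (avg Q)^[n] f g := by
  have hm : (0 : ℝ) < Q.card := by exact_mod_cast hQ.card_pos
  induction n generalizing f with
  | zero => exact hf g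
  | succ n ih =>
    rw [Function.iterate_succ_apply]
    refine ih fun g => ?_
    rw [avg]
    have h1 : ∑ s ∈ Q, (c + c) ≤ ∑ s ∈ Q, (f (g * s) + f (g * s⁻¹)) :=
      Finset.sum_le_sum fun s _ => add_le_add (hf _) (hf _)
    rw [Finset.sum_const, nsmul_eq_mul] at h1
    have h2 : c / 2 ≤ (∑ s ∈ Q, (f (g * s) + f (g * s⁻¹))) / (4 * Q.card) := by
      rw [le_div_iff₀ (by positivity)]
      calc c / 2 * (4 * Q.card) = Q.card * (c + c) := by ring
        _ ≤ _ := h1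
    have h3 := hf g
    linarith

end Vale.Agent.P092.H885
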