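import Vale.Agent.P092.H160.StDefs

/-!
Definitions used in the statements for P092 (fourth power sums, averages, Kazhdan pairs).
-/

namespace Vale.Agent.P092.H885

open Vale.Agent.P092.H160 Vale.Agent.P092.H160.St

/-- The fourth power sum of the Fourier coefficients: `∑_s |τ(T u_s*)|⁴`. -/
noncomputable def fourth {G : Type} [Group G] (T : Op G) : ℝ :=
  ∑' s : G, ‖St.tr (St.mul T (St.u s⁻¹))‖ ^ 4

end Vale.Agent.P092.H885
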