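import Mathlib

/-!
Continuous functional calculus on the two-torus for a pair of commuting unitaries.
-/

set_option linter.all false

open scoped InnerProductSpace ComplexConjugate
open Filter Topology ContinuousLinearMap
open scoped CStarAlgebra

namespace Vale.Agent.P092.H885

/-- the circle `ℝ/ℤ` -/
abbrev T1 : Type := AddCircle (1 : ℝ)

/-- the two-torus -/
abbrev T2 : Type := T1 × T1

instance : Fact (0 < (1 : ℝ)) := ⟨one_pos⟩

noncomputable def e1 : C(T2, ℂ) :=
  ⟨fun p => (AddCircle.toCircle p.1 : ℂ),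
    continuous_subtype_val.comp (AddCircle.continuous_toCircle.comp continuous_fst)⟩

noncomputable def e2 : C(T2, ℂ) :=
  ⟨fun p => (AddCircle.toCircle p.2 : ℂ),
    continuous_subtype_val.comp (AddCircle.continuous_toCircle.comp continuous_snd)⟩

/-- a point of the circle -/
def mkC (z : ℂ) (hz : ‖z‖ = 1) : Circle := ⟨z, mem_sphere_zero_iff_norm.mpr hz⟩

variable {B : Type} [CStarAlgebra B]

theorem comm_star_of_comm {U V : B} (hU : star U * U = 1) (hU' : U * star U = 1)
    (hc : U * V = V * U) : V * star U = star U * V := by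
  calc V * star U = star U * U * (V * star U) := by rw [hU, one_mul]
    _ = star U * (U * V) * star U := by simp only [mul_assoc]
    _ = star U * (V * U) * star U := by rw [hc]
    _ = star U * V * (U * star U) := by simp only [mul_assoc]
    _ = star U * V := by rw [hU', mul_one]

theorem exists_Phi_aux (A : StarSubalgebra ℂ B) (hcl : IsClosed (A : Set B))
    (hcomm : ∀ x y : A, x * y = y * x) (u v : A) (hu1 : star u * u = 1) (hv1 : star v * v = 1) :
    ∃ Φ : C(T2, ℂ) →⋆ₐ[ℂ] B, Φ e1 = u ∧ Φ e2 = v := by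
  haveI := hcl
  letI i2 : CommCStarAlgebra A :=
    { StarSubalgebra.cstarAlgebra A with
      mul_comm := hcomm }
  have hnu : ∀ (w : A), star w * w = 1 → ∀ χ : WeakDual.characterSpace ℂ A, ‖χ w‖ = 1 := by
    intro w hw χ
    have h5 : χ (star w * w) = 1 := by rw [hw, map_one]
    rw [map_mul, map_star] at h5
    have h6 : (starRingEnd ℂ (χ w)) * χ w = 1 := h5
    rw [← Complex.normSq_eq_conj_mul_self] at h6
    have h7 : Complex.normSq (χ w) = 1 := by exact_mod_cast h6
    rw [Complex.normSq_eq_norm_sq] at h7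
    exact (pow_eq_one_iff_of_nonneg (norm_nonneg _) two_ne_zero).mp h7
  have hcu : ∀ (w : A) (hw : star w * w = 1), Continuous fun χ : WeakDual.characterSpace ℂ A =>
      (AddCircle.homeomorphCircle (T := (1 : ℝ)) one_ne_zero).symm
        (mkC (χ w) (hnu w hw χ)) := by
    intro w hw
    refine (AddCircle.homeomorphCircle (T := (1 : ℝ)) one_ne_zero).symm.continuous.comp ?_
    refine Continuous.subtype_mk ?_ _
    exact (gelfandStarTransform A w).continuous
  have hval : ∀ (w : A) (hw : star w * w = 1) (χ : WeakDual.characterSpace ℂ A),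
      ((AddCircle.toCircle ((AddCircle.homeomorphCircle (T := (1 : ℝ)) one_ne_zero).symm
        (mkC (χ w) (hnu w hw χ))) : Circle) : ℂ) = χ w := by
    intro w hw χ
    rw [← AddCircle.homeomorphCircle_apply one_ne_zero, Homeomorph.apply_symm_apply]
    rfl
  let F : C(WeakDual.characterSpace ℂ A, T2) := ⟨fun χ => (_, _), (hcu u hu1).prodMk (hcu v hv1)⟩
  let Ψ : C(T2, ℂ) →⋆ₐ[ℂ] C(WeakDual.characterSpace ℂ A, ℂ) := ContinuousMap.compStarAlgHom' ℂ ℂ F
  let G : C(WeakDual.characterSpace ℂ A, ℂ) →⋆ₐ[ℂ] A := (gelfandStarTransform A).symm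
  let Φ : C(T2, ℂ) →⋆ₐ[ℂ] B := A.subtype.comp (G.comp Ψ)
  have hG1 : Ψ e1 = gelfandStarTransform A u := by
    ext χ
    exact hval u hu1 χ
  have hG2 : Ψ e2 = gelfandStarTransform A v := by
    ext χ
    exact hval v hv1 χ
  refine ⟨Φ, ?_, ?_⟩
  · change (((gelfandStarTransform A).symm (Ψ e1) : A) : B) = u
    rw [hG1, StarAlgEquiv.symm_apply_apply]
  · change (((gelfandStarTransform A).symm (Ψ e2) : A) : B) = v
    rw [hG2, StarAlgEquiv.symm_apply_apply]

theorem exists_Phi {U V : B} (hU : star U * U = 1) (hU' : U * star U = 1)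
    (hV : star V * V = 1) (hV' : V * star V = 1) (hc : U * V = V * U) :
    ∃ Φ : C(T2, ℂ) →⋆ₐ[ℂ] B, Φ e1 = U ∧ Φ e2 = V := by
  have h1 : ∀ a ∈ ({U, V} : Set B), ∀ b ∈ ({U, V} : Set B), a * b = b * a := by
    rintro a (rfl | rfl) b (rfl | rfl)
    · rfl
    · exact hc
    · exact hc.symm
    · rfl
  have h2 : ∀ a ∈ ({U, V} : Set B), ∀ b ∈ ({U, V} : Set B), a * star b = star b * a := by
    rintro a (rfl | rfl) b (rfl | rfl)
    · rw [hU, hU']
    · exact comm_star_of_comm hV hV' hc.symm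
    · exact comm_star_of_comm hU hU' hc
    · rw [hV, hV']
  have h3 := StarAlgebra.isMulCommutative_adjoin ℂ h1 h2
  set S : StarSubalgebra ℂ B := StarAlgebra.adjoin ℂ ({U, V} : Set B) with hS
  have h4 : ∀ x y : S, x * y = y * x := fun x y => mul_comm' x y
  have hmU : U ∈ S.topologicalClosure :=
    S.le_topologicalClosure (StarAlgebra.subset_adjoin ℂ _ (by simp))
  have hmV : V ∈ S.topologicalClosure :=
    S.le_topologicalClosure (StarAlgebra.subset_adjoin ℂ _ (by simp))
  exact exists_Phi_aux S.topologicalClosure S.isClosed_topologicalClosure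
    (StarSubalgebra.commRingTopologicalClosure S h4).mul_comm ⟨U, hmU⟩ ⟨V, hmV⟩
    (Subtype.ext hU) (Subtype.ext hV)

/-- Uniqueness. -/
theorem Phi_ext {Φ Ψ : C(T2, ℂ) →⋆ₐ[ℂ] B} (h1 : Φ e1 = Ψ e1) (h2 : Φ e2 = Ψ e2) : Φ = Ψ := by
  have hle : StarAlgebra.adjoin ℂ ({e1, e2} : Set C(T2, ℂ)) ≤ StarAlgHom.equalizer Φ Ψ := by
    refine StarAlgHom.adjoin_le_equalizer Φ Ψ ?_
    rintro a (rfl | rfl)
    · exact h1
    · exact h2
  have hcl : IsClosed ((StarAlgHom.equalizer Φ Ψ : StarSubalgebra ℂ C(T2, ℂ)) : Set C(T2, ℂ)) := by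
    refine isClosed_eq ?_ ?_
    · exact map_continuous Φ
    · exact map_continuous Ψ
  have htop : (StarAlgebra.adjoin ℂ ({e1, e2} : Set C(T2, ℂ))).topologicalClosure = ⊤ := by
    refine ContinuousMap.starSubalgebra_topologicalClosure_eq_top_of_separatesPoints _ ?_
    intro p q hpq
    by_cases h : p.1 = q.1
    · have h' : p.2 ≠ q.2 := fun h'' => hpq (Prod.ext h h'')
      refine ⟨e2, ⟨e2, StarAlgebra.subset_adjoin ℂ _ (by simp), rfl⟩, fun h3 => h' ?_⟩
      exact AddCircle.injective_toCircle one_ne_zero (Subtype.ext h3)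
    · refine ⟨e1, ⟨e1, StarAlgebra.subset_adjoin ℂ _ (by simp), rfl⟩, fun h3 => h ?_⟩
      exact AddCircle.injective_toCircle one_ne_zero (Subtype.ext h3)
  have h4 := StarSubalgebra.topologicalClosure_minimal hle hcl
  rw [htop] at h4
  ext f
  exact h4 (trivial : f ∈ (⊤ : StarSubalgebra ℂ C(T2, ℂ)))

end Vale.Agent.P092.H885
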